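import Vale.Agent.P242.H751.BlkF
import Vale.Agent.P242.H542.Gam
import Vale.Agent.P242.H155.Inv
import Vale.Agent.P242.H358.NearIso

/-! P242 (helper751): the maps `u_c` of a configuration, and the form `G_t(x)`. -/

set_option linter.all false

open MeasureTheory Filter Topology Set Metric
open scoped ENNReal NNReal MeasureTheory InnerProductSpace

universe u

namespace Vale.Agent.P242.H751

open Vale.Agent.P233 Vale.Agent.P233.RA Vale.Agent.P242.H71 Vale.Agent.P242.H990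

section lin

variable {M : Type u} [MeasurableSpace M] {m : Measure M} {n : ℕ} {u : Fin n → M →ₘ[m] ℝ}

theorem uc_add (c d : E n) : uc u (c + d) = uc u c + uc u d := by
  unfold uc
  rw [← Finset.sum_add_distrib]
  refine Finset.sum_congr rfl fun i _ => ?_
  rw [PiLp.add_apply, add_smul]

theorem uc_smul (a : ℝ) (c : E n) : uc u (a • c) = a • uc u c := by
  unfold uc
  rw [Finset.smul_sum]
  refine Finset.sum_congr rfl fun i _ => ?_
  rw [PiLp.smul_apply, smul_eq_mul, mul_smul]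

theorem uc_sub (c d : E n) : uc u (c - d) = uc u c - uc u d := by
  have e : c - d = c + (-1 : ℝ) • d := by module
  rw [e, uc_add, uc_smul]
  module

theorem uc_ae [MetricSpace M] [BorelSpace M] [SecondCountableTopology M] {uu : M → E n} (h : ∀ i, ∀ᵐ x ∂m, u i x = uu x i) (c : E n) :
    ∀ᵐ x ∂m, uc u c x = ⟪c, uu x⟫_ℝ := by
  unfold uc
  have h1 := H358.sum_ae (Finset.univ : Finset (Fin n)) (fun i => c i • u i)
  have h2 : ∀ᵐ x ∂m, ∀ i, (c i • u i : M →ₘ[m] ℝ) x = c i * u i x :=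
    ae_all_iff.2 fun i => smul_ae (u i) (c i)
  filter_upwards [h1, h2, ae_all_iff.2 h] with x a1 a2 a3
  rw [a1, PiLp.inner_apply]
  refine Finset.sum_congr rfl fun i _ => ?_
  rw [a2, a3]
  simp [mul_comm]

end lin

section cfg

variable {M : Type u} [MetricSpace M] [MeasurableSpace M] [BorelSpace M] {m : Measure M} {n : ℕ}
  {K : ℝ} {o : M} {A : ℝ} {p : ℝ → M → M → ℝ} {R Q η ρ : ℝ} {u : Fin n → M →ₘ[m] ℝ}
  {uu : M → E n} {t : ℝ} {x : M}

theorem uc_testI (hC : IsGamma (sob m)) (hu : Cfg m n K o p R Q η ρ u uu) (c : E n) :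
    uc u c ∈ (sob m).TestI :=
  hC.tI_sum _ fun i _ => hC.tI_smul _ (hu.test i)

theorem uc_test (hC : IsGamma (sob m)) (hu : Cfg m n K o p R Q η ρ u uu) (c : E n) :
    uc u c ∈ (sob m).Test := (uc_testI hC hu c).1

theorem uc_A (hC : IsGamma (sob m)) (hu : Cfg m n K o p R Q η ρ u uu) (c : E n) :
    uc u c ∈ (sob m).A := hC.test_A (uc_test hC hu c)

theorem uc_W (hC : IsGamma (sob m)) (hu : Cfg m n K o p R Q η ρ u uu) (c : E n) :
    uc u c ∈ (sob m).W := (uc_A hC hu c).1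

theorem continuous_uc (hu : Cfg m n K o p R Q η ρ u uu) (c : E n) :
    Continuous fun z => ⟪c, uu z⟫_ℝ := continuous_const.inner hu.cont

theorem cl_uc [SecondCountableTopology M] (hu : Cfg m n K o p R Q η ρ u uu) (c : E n) :
    cl m (fun z => ⟪c, uu z⟫_ℝ) = uc u c := by
  rw [eq_iff_ae]
  filter_upwards [H183.cl_cont (m := m) (continuous_uc hu c), uc_ae hu.rep c] with z h1 h2
  rw [h1, h2]

theorem uc_lap (hC : IsGamma (sob m)) (hu : Cfg m n K o p R Q η ρ u uu) (c : E n) :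
    (sob m).lap (uc u c) = ∑ i, c i • (sob m).lap (u i) := by
  have hD := hC.toIsDir
  have key : ∀ s : Finset (Fin n), (∑ i ∈ s, c i • u i) ∈ (sob m).Test ∧
      (sob m).lap (∑ i ∈ s, c i • u i) = ∑ i ∈ s, c i • (sob m).lap (u i) := by
    intro s
    classical
    induction s using Finset.induction_on with
    | empty =>
      refine ⟨by simpa using (hC.tI_zero).1, ?_⟩
      simp only [Finset.sum_empty]
      refine hD.lap_eq ⟨hD.zero_mem, mem_zero, fun g hg => ?_⟩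
      show I ((sob m).Γ 0 g) = -I (0 * g)
      rw [hD.Γ_zero_left hg, zero_mul, I_zero, neg_zero]
    | insert a s ha ih =>
      rw [Finset.sum_insert ha, Finset.sum_insert ha]
      have ta := hC.test_smul' (c a) (hu.test a).1
      refine ⟨hC.test_add' ta ih.1, ?_⟩
      rw [hD.lap_eq (hD.isLap_add (hC.test_isLap ta) (hC.test_isLap ih.1)), ih.2,
        hD.lap_eq (hD.isLap_smul (c a) (hC.test_isLap (hu.test a).1))]
  exact (key Finset.univ).2

theorem Γ_top (hC : IsGamma (sob m)) (hu : Cfg m n K o p R Q η ρ u uu) (c d : E n) :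
    MemLp ((sob m).Γ (uc u c) (uc u d)) ∞ m :=
  hC.toIsDir.Γ_memTop (uc_W hC hu c) (hC.test_Γ_top (uc_test hC hu c)) (uc_W hC hu d)
    (hC.test_Γ_top (uc_test hC hu d))

theorem PP_int_top (hp : H520.Ker0 m p) (ht : 0 < t) (x : M) {F : M →ₘ[m] ℝ} (hF : MemLp F ∞ m) :
    MemLp (ph m p t x * F : M →ₘ[m] ℝ) 1 m := mem_top_mul (ph_mem1 hp ht x) hF

theorem PP_add (hp : H520.Ker0 m p) (ht : 0 < t) (x : M) {F G : M →ₘ[m] ℝ}
    (hF : MemLp (ph m p t x * F : M →ₘ[m] ℝ) 1 m) (hG : MemLp (ph m p t x * G : M →ₘ[m] ℝ) 1 m) :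
    PP m p t x (F + G) = PP m p t x F + PP m p t x G := by
  unfold PP
  rw [mul_add, I_add hF hG]

theorem PP_smul (x : M) (a : ℝ) (F : M →ₘ[m] ℝ) :
    PP m p t x (a • F) = a * PP m p t x F := by
  unfold PP
  rw [mul_smul_comm, I_smul]

theorem Gm_symm (hC : IsGamma (sob m)) (hu : Cfg m n K o p R Q η ρ u uu) (c d : E n) :
    Gm m p u t x c d = Gm m p u t x d c := by
  unfold Gm
  rw [hC.toIsDir.symm _ (uc_W hC hu c) _ (uc_W hC hu d)]

theorem Gm_add_left (hC : IsGamma (sob m)) (hp : H520.Ker0 m p)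
    (hu : Cfg m n K o p R Q η ρ u uu) (ht : 0 < t) (c d e : E n) :
    Gm m p u t x (c + d) e = Gm m p u t x c e + Gm m p u t x d e := by
  unfold Gm
  rw [uc_add, hC.toIsDir.add_left _ (uc_W hC hu c) _ (uc_W hC hu d) _ (uc_W hC hu e),
    PP_add hp ht x (PP_int_top hp ht x (Γ_top hC hu c e)) (PP_int_top hp ht x (Γ_top hC hu d e))]

theorem Gm_smul_left (hC : IsGamma (sob m)) (hu : Cfg m n K o p R Q η ρ u uu) (a : ℝ) (c e : E n) :
    Gm m p u t x (a • c) e = a * Gm m p u t x c e := by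
  unfold Gm
  rw [uc_smul, hC.toIsDir.smul_left a _ (uc_W hC hu c) _ (uc_W hC hu e), PP_smul]

/-- the form `G_t(x)` as a bilinear map -/
noncomputable def GF (hC : IsGamma (sob m)) (hp : H520.Ker0 m p)
    (hu : Cfg m n K o p R Q η ρ u uu) {t : ℝ} (ht : 0 < t) (x : M) : E n →ₗ[ℝ] E n →ₗ[ℝ] ℝ :=
  LinearMap.mk₂ ℝ (Gm m p u t x) (Gm_add_left hC hp hu ht) (Gm_smul_left hC hu)
    (fun c d e => by
      rw [Gm_symm hC hu, Gm_add_left hC hp hu ht, Gm_symm hC hu d, Gm_symm hC hu e])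
    (fun a c d => by
      rw [Gm_symm hC hu, Gm_smul_left hC hu, Gm_symm hC hu d, smul_eq_mul])

theorem GF_apply (hC : IsGamma (sob m)) (hp : H520.Ker0 m p)
    (hu : Cfg m n K o p R Q η ρ u uu) {t : ℝ} (ht : 0 < t) (x : M) (c d : E n) :
    GF hC hp hu ht x c d = Gm m p u t x c d := rfl

end cfg

end Vale.Agent.P242.H751
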