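import Vale.Agent.P242.H751.P3g

/-! P242 (helper751): (ND), the block `H155.Blk_Nd`. -/

set_option linter.all false

open MeasureTheory Filter Topology Set Metric
open scoped ENNReal NNReal MeasureTheory InnerProductSpace

universe u

namespace Vale.Agent.P242.H751

open Vale.Agent.P233 Vale.Agent.P233.RA Vale.Agent.P242.H71 Vale.Agent.P242.H990

/-- the smallness of the Laplacian -/
theorem nd_lap {n η ρ N t τ L₂ e₀ G ε₁ : ℝ} (hn : 0 ≤ n) (hη0 : 0 ≤ η) (hη : η ≤ ε₁) (hρ : 0 < ρ)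
    (ht : 0 < t) (hτ0 : 0 < τ) (hτ : τ ≤ L₂ * t) (hL₂ : 0 < L₂) (hε1 : ε₁ ≤ 1)
    (he : 2 * n * L₂ * ε₁ ≤ e₀ ^ 2) (hG : 0 ≤ G) (hN : N ≤ (ρ ^ 2 / t) * (2 * G)) :
    n * N * (η / ρ) ^ 2 ≤ e₀ ^ 2 / τ * G := by
  have hη2 : η ^ 2 ≤ ε₁ := by nlinarith
  calc n * N * (η / ρ) ^ 2 ≤ n * ((ρ ^ 2 / t) * (2 * G)) * (η / ρ) ^ 2 := by gcongr
    _ = 2 * n * η ^ 2 * (1 / t) * G := by field_simp
    _ ≤ 2 * n * ε₁ * (1 / t) * G := by gcongr
    _ ≤ 2 * n * ε₁ * (L₂ / τ) * G := by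
        have h1 : 1 / t ≤ L₂ / τ := by
          rw [div_le_div_iff₀ ht hτ0]; linarith
        have : 0 ≤ ε₁ := hη0.trans hη
        gcongr
    _ = (2 * n * L₂ * ε₁) / τ * G := by ring
    _ ≤ e₀ ^ 2 / τ * G := by gcongr

theorem nd_fin {κ₀ A t s G Y c₀ : ℝ} (hA : 0 < A) (hc₀ : 0 ≤ c₀) (ht : 0 < t) (hts : t ≤ s)
    (h : c₀ * √(s / (512 * A ^ 2)) * √G ≤ Y) : c₀ * √(1 / (512 * A ^ 2)) * √t * √G ≤ Y := by
  refine le_trans ?_ h
  have e : s / (512 * A ^ 2) = 1 / (512 * A ^ 2) * s := by ring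
  rw [e, Real.sqrt_mul (by positivity)]
  have : √t ≤ √s := Real.sqrt_le_sqrt hts
  have h2 : c₀ * (√(1 / (512 * A ^ 2)) * √s) * √G = c₀ * √(1 / (512 * A ^ 2)) * √s * √G := by ring
  rw [h2]
  gcongr

/-- **(ND)** -/
theorem blk_Nd : H155.Blk_Nd.{u} := by
  intro M _ _ _ _ _ m n K o A p h
  have hA1 := h.kb.one_le
  have hA0 := h.kb.pos
  have hA2 : 1 ≤ A ^ 2 := one_le_pow₀ hA1
  have hn : (0 : ℝ) < n := (H924.facts h.hyp).npos
  obtain ⟨c₀, hc₀, e₀, he₀, hnd⟩ := nd_at h (cP_ge (n := n) hA1)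
  refine ⟨c₀ * √(1 / (512 * A ^ 2)), by positivity, ?_⟩
  intro L hL
  have hL2 : 1 ≤ L ^ 2 := one_le_pow₀ hL
  set L₂ : ℝ := 512 * A ^ 2 * L ^ 2 with hL₂
  have hL₂1 : 1 ≤ L₂ := by
    have : 1 * 1 ≤ 512 * A ^ 2 * L ^ 2 := mul_le_mul (by linarith) hL2 (by norm_num) (by positivity)
    linarith
  have hL₂A : 512 * A ^ 2 ≤ L₂ := le_mul_of_one_le_right (by positivity) hL2
  have hLL₂ : L ^ 2 ≤ L₂ := le_mul_of_one_le_left (by positivity) (by linarith)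
  obtain ⟨ε₂, hε₂0, h3g⟩ := p3gX h hL₂1
  obtain ⟨ε₃, hε₃0, hcmp⟩ := cmpX h hL₂1
  have hQ₀ : L₂ ≤ 4 * A ^ 2 * (24 * A ^ 2 * L₂) := by
    have h1 : 1 * L₂ ≤ 24 * A ^ 2 * L₂ := mul_le_mul_of_nonneg_right (by linarith) (by positivity)
    have h2 : 1 * (24 * A ^ 2 * L₂) ≤ 4 * A ^ 2 * (24 * A ^ 2 * L₂) :=
      mul_le_mul_of_nonneg_right (by linarith) (by positivity)
    linarith
  refine ⟨4 * A ^ 2 * (24 * A ^ 2 * L₂), hL₂1.trans hQ₀, ?_⟩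
  intro Q hQ
  refine ⟨32 * A * L₂, ?_, ?_⟩
  · have h1 : 1 * 1 ≤ 32 * A * L₂ := mul_le_mul (by linarith) hL₂1 (by norm_num) (by positivity)
    linarith
  intro R hR
  obtain ⟨ε₁, hε₁0, hε₁a, hε₁b, hε₁c, hε₁d, hε₁e⟩ : ∃ ε₁ : ℝ, 0 < ε₁ ∧ ε₁ ≤ ε₂ ∧ ε₁ ≤ ε₃ ∧
      4 * L₂ * ε₁ ≤ 1 ∧ 2 * n * L₂ * ε₁ ≤ e₀ ^ 2 ∧ ε₁ ≤ 1 := by
    refine ⟨min (min ε₂ ε₃) (min (1 / (4 * L₂)) (min (e₀ ^ 2 / (2 * n * L₂)) 1)), by positivity,
      (min_le_left _ _).trans (min_le_left _ _), (min_le_left _ _).trans (min_le_right _ _),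
      ?_, ?_, (min_le_right _ _).trans ((min_le_right _ _).trans (min_le_right _ _))⟩
    · refine (mul_le_mul_of_nonneg_left ((min_le_right _ _).trans (min_le_left _ _))
        (by positivity)).trans (le_of_eq ?_)
      field_simp
    · refine (mul_le_mul_of_nonneg_left ((min_le_right _ _).trans ((min_le_right _ _).trans
        (min_le_left _ _))) (by positivity)).trans (le_of_eq ?_)
      field_simp
  refine ⟨ε₁, hε₁0, ?_⟩
  intro ε' η ρ hε0 hε hη0 hη hρ1 u uu hu x hx t ht htρ hT s hts hsL c b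
  have hρ := hu.ρ_pos
  have hR0 : 0 < R := lt_of_lt_of_le (by positivity) hR
  have hxR : x ∈ ball o (R * ρ) := by
    refine ball_subset_ball ?_ hx
    have : R / 2 * ρ ≤ R * ρ := mul_le_mul_of_nonneg_right (by linarith) hρ.le
    exact this
  have hx1 : dist x o ≤ 1 := (mem_ball.1 hxR).le.trans hu.Rρ
  set τ : ℝ := s / (512 * A ^ 2) with hτ
  have hs0 : 0 < s := ht.trans_le hts
  have hτ0 : 0 < τ := by positivity
  have hτs : 512 * A ^ 2 * τ = s := by rw [hτ]; field_simp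
  have hτs' : τ ≤ s := by
    rw [hτ]
    exact div_le_self hs0.le (by linarith)
  have hτ1 : t / L₂ ≤ τ := by
    rw [hτ]
    exact div_le_div₀ hs0.le hts (by positivity) hL₂A
  have hsL₂ : s ≤ L₂ * t := hsL.trans (mul_le_mul_of_nonneg_right hLL₂ ht.le)
  have hτ2 : τ ≤ L₂ * t := hτs'.trans hsL₂
  have hQ4 : L₂ ≤ Q := hQ₀.trans hQ
  have hsQ : s ≤ Q * ρ ^ 2 := by
    refine hsL₂.trans ?_
    have : 0 ≤ Q := by linarith
    calc L₂ * t ≤ Q * t := by gcongr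
      _ ≤ _ := by gcongr
  have hQc : 4 * A ^ 2 * L₂ ≤ Q := by
    refine le_trans ?_ hQ
    refine mul_le_mul_of_nonneg_left ?_ (by positivity)
    exact le_mul_of_one_le_left (by positivity) (by linarith)
  obtain ⟨hlow, hc⟩ := hcmp R Q ε' η ρ u uu hQc hε0.le (hε.trans hε₁b) hη0.le
    (hη.trans hε₁b) hu x hxR t ht htρ hT c
  obtain ⟨hc1, hc2⟩ := hc τ hτ1 hτ2
  have hgr := h3g R Q ε' η ρ u uu hQ hR hε0.le (hε.trans hε₁a) hη0.le (hη.trans hε₁a) hu x hx t ht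
    htρ hT τ hτ1 hτ2 c
  have hC := env_gamma h
  have g0 : 0 ≤ Gm m p u t x c c := (env_cen h x).av_nonneg ht
    (hC.nonneg _ (hC.test_A (uc_test hC hu c)).1)
  have hN : ‖c‖ ^ 2 ≤ (ρ ^ 2 / t) * (2 * Gm m p u t x c c) := far_norm ht htρ (sq_nonneg _) hlow
  have hKτ : |K| * τ ≤ 1 / 4 := by
    calc |K| * τ ≤ |K| * (L₂ * ρ ^ 2) := by
          refine mul_le_mul_of_nonneg_left (hτ2.trans ?_) (abs_nonneg _)
          exact mul_le_mul_of_nonneg_left htρ (by positivity)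
      _ = L₂ * (|K| * ρ ^ 2) := by ring
      _ ≤ L₂ * ε₁ := mul_le_mul_of_nonneg_left (hu.Kρ.trans hη) (by positivity)
      _ ≤ 1 / 4 := by linarith
  have key := hnd (uc u c) (uc_test hC hu c) x hx1 τ hτ0 (by rw [hτs]; exact hsQ.trans hu.Qρ) hKτ
    (Gm m p u t x c c) g0 hc1 hc2 (fun r hr => by
      have hr0 : 0 < r := hτ0.trans_le hr.1
      have k1 := H924.uc_lap1 h hu c hxR hr0 (hr.2.trans (by rw [hτs]; exact hsQ))
      refine k1.trans ?_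
      have k2 := nd_lap hn.le hη0.le hη hρ ht hτ0 hτ2 (by positivity : 0 < L₂) hε₁e hε₁d g0 hN
      have e : (√(n : ℝ) * ‖c‖ * (η / ρ)) ^ 2 = n * ‖c‖ ^ 2 * (η / ρ) ^ 2 := by
        rw [mul_pow, mul_pow, Real.sq_sqrt hn.le]
      rw [e]
      exact k2) hgr b
  rw [hτs] at key
  exact nd_fin (κ₀ := 0) hA0 hc₀.le ht hts key

end Vale.Agent.P242.H751
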