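import Vale.Agent.P242.H751.SS
import Vale.Agent.P242.H990.K
import Vale.Agent.P242.H200.Ibp

/-! P242 (helper751): nondegeneracy of the maps `u_c` in `L¹(p_s(x,·))`. -/

set_option linter.all false

open MeasureTheory Filter Topology Set Metric
open scoped ENNReal NNReal MeasureTheory InnerProductSpace

universe u

namespace Vale.Agent.P242.H751

open Vale.Agent.P233 Vale.Agent.P233.RA Vale.Agent.P242.H71 Vale.Agent.P242.H990

section nd

variable {M : Type u} [MetricSpace M] [CompleteSpace M] [SecondCountableTopology M]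
  [MeasurableSpace M] [BorelSpace M] {m : Measure M} {n : ℕ} {K : ℝ} {o : M} {A : ℝ}
  {p : ℝ → M → M → ℝ} {s s' : ℝ} {f g F G : M →ₘ[m] ℝ}

theorem env_ph_top (h : Env m n K o A p) (hs : 0 < s) (x : M) : MemLp (ph m p s x) ∞ m :=
  ph_top (env_gamma h) h.ker h.kb hs x

theorem env_ph_A (h : Env m n K o A p) (hs : 0 < s) (x : M) : ph m p s x ∈ (sob m).A :=
  ph_A (env_gamma h) h.ker h.kb hs x

/-- `p_s(x,·) F` is integrable for `F ∈ L¹` -/
theorem PP_int_one (h : Env m n K o A p) (hs : 0 < s) (x : M) (hF : MemLp F 1 m) :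
    MemLp (ph m p s x * F : M →ₘ[m] ℝ) 1 m := mem_mul_top (env_ph_top h hs x) hF

/-- weighted Cauchy-Schwarz -/
theorem PP_cs (h : Env m n K o A p) (hs : 0 < s) (x : M) (hF : MemLp F ∞ m) (hG : MemLp G 2 m) :
    |PP m p s x (F * G)| ≤ √(PP m p s x (F ^ 2)) * √(PP m p s x (G ^ 2)) := by
  have hp := h.ker
  have i1 : Integrable (fun z => p s x z * F z ^ 2) m := by
    have : MemLp (ph m p s x * F ^ 2 : M →ₘ[m] ℝ) 1 m := by
      refine PP_int_top hp hs x ?_
      rw [sq]; exact mem_mul_top hF hF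
    refine ((int_ph_mul hp hs x).1 this).congr ?_
    filter_upwards [sq_ae F] with z hz
    rw [hz]
  have hi : Integrable (fun z => p s x z * G z ^ 2) m := by
    refine ((int_ph_mul hp hs x).1 (PP_int_one h hs x (mem_sq hG))).congr ?_
    filter_upwards [sq_ae G] with z hz
    rw [hz]
  have h := (pt_cs hp hs x (F := F) (G := G) F.aestronglyMeasurable G.aestronglyMeasurable i1 hi).2
  have e1 : PP m p s x (F * G) = H520.pt m p s (fun z => F z * G z) x := by
    rw [PP_eq_pt hp hs]; exact pt_congr hp (mul_ae F G) s x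
  have e2 : PP m p s x (F ^ 2) = H520.pt m p s (fun z => F z ^ 2) x := by
    rw [PP_eq_pt hp hs]; exact pt_congr hp (sq_ae F) s x
  have e3 : PP m p s x (G ^ 2) = H520.pt m p s (fun z => G z ^ 2) x := by
    rw [PP_eq_pt hp hs]; exact pt_congr hp (sq_ae G) s x
  rw [e1, e2, e3, ← Real.sqrt_mul (pt_nonneg hp hs x (ae_of_all _ fun z => sq_nonneg _))]
  exact Real.abs_le_sqrt h

/-- the core of (nd): integration by parts against the heat kernel -/
theorem nd_core (h : Env m n K o A p) (hf : f ∈ (sob m).Test) (hs : 0 < s)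
    (h1 : 512 * A ^ 2 * s = s') (h3 : s' ≤ 1 / 2) (x : M) {D : ℝ} (hD : 0 ≤ D)
    (hg : ∀ᵐ z ∂m, (sob m).Γ f f z ≤ (D * Real.exp (dist x z ^ 2 / (16 * A * s))) ^ 2) (b : ℝ) :
    PP m p s x ((sob m).Γ f f) ≤
      √(PP m p s x ((f - b • 1) ^ 2)) * √(PP m p s x ((sob m).lap f ^ 2)) +
      Real.exp |K| / √s * (cK n A (512 * A ^ 2) 0 * Real.exp (32 * A * dist x o)) * D *
        PP m p s' x |f - b • 1| := by
  have hC := env_gamma h
  have hB := env_bei h
  have hp := h.ker
  have hA0 := h.kb.pos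
  have hs' : 0 < s' := by rw [← h1]; positivity
  have q0 : 0 < √s := Real.sqrt_pos.2 hs
  have fA := hC.test_A hf
  have φA := env_ph_A h hs x
  have φ1 := ph_mem1 hp hs x
  have hl := hC.test_isLap hf
  have hkey := H200.ibp hC.toIsDir φA φ1 fA hl b
  set φ := ph m p s x with hφ
  set F : M →ₘ[m] ℝ := f - b • 1 with hF
  have hFt : MemLp F ∞ m := mem_sub fA.2 (mem_smul _ mem_top_one)
  have hl2 : MemLp ((sob m).lap f) 2 m := hl.2.1
  have i1 : MemLp (φ * (sob m).lap f : M →ₘ[m] ℝ) 1 m := mem_mul_22 (hC.memLp _ φA.1) hl2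
  have i2 : MemLp ((sob m).Γ φ f) 1 m := hC.toIsDir.Γ_mem1 φA.1 fA.1
  have j1 : MemLp (F * (φ * (sob m).lap f) : M →ₘ[m] ℝ) 1 m := mem_mul_top hFt i1
  have j2 : MemLp (F * (sob m).Γ φ f : M →ₘ[m] ℝ) 1 m := mem_mul_top hFt i2
  rw [mul_add, I_add j1 j2] at hkey
  have e1 : F * (φ * (sob m).lap f) = φ * (F * (sob m).lap f) := by ring
  rw [e1] at hkey
  have t1 : |I (φ * (F * (sob m).lap f))| ≤
      √(PP m p s x (F ^ 2)) * √(PP m p s x ((sob m).lap f ^ 2)) := PP_cs h hs x hFt hl2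
  set c : ℝ := Real.exp |K| / √s * (cK n A (512 * A ^ 2) 0 * Real.exp (32 * A * dist x o)) with hc
  have hcK : 0 < cK n A (512 * A ^ 2) 0 := cK_pos h.kb.one_le (by positivity)
  have hc0 : 0 ≤ c := by positivity
  have hgr := ph_grad hC hp h.kb hB (Γ := 512 * A ^ 2) (C₀ := 0) (x := x) (x' := x) hs h1.le h1.ge h3
    (by rw [dist_self]; positivity)
  have hFa : MemLp (|F| : M →ₘ[m] ℝ) ∞ m :=
    mem_of_le hFt (by filter_upwards [H200.abs_ae' F] with z hz; rw [hz, abs_abs])
  have j3 : MemLp (ph m p s' x * |F| : M →ₘ[m] ℝ) 1 m := PP_int_top hp hs' x hFa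
  have t2 : |I (F * (sob m).Γ φ f)| ≤ c * D * PP m p s' x |F| := by
    unfold PP
    rw [← I_smul]
    unfold I
    refine (abs_integral_le_integral_abs).trans (integral_mono_ae (int_of_mem j2).abs
      (int_of_mem (mem_smul _ j3)) ?_)
    filter_upwards [mul_ae F ((sob m).Γ φ f), smul_ae (ph m p s' x * |F|) (c * D),
      mul_ae (ph m p s' x) |F|, H200.abs_ae' F, ph_ae hp hs' x, hgr, hg,
      hC.toIsDir.Γ_abs_ae φA.1 fA.1] with z b1 b2 b3 b4 b5 b6 b7 b8
    simp only [b1, b2, b3, b4, b5]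
    rw [abs_mul]
    have c2 : √((sob m).Γ f f z) ≤ D * Real.exp (dist x z ^ 2 / (16 * A * s)) :=
      Real.sqrt_le_iff.2 ⟨by positivity, b7⟩
    have hpn := hp.nonneg s' hs' x z
    have c3 : |(sob m).Γ φ f z| ≤ c * D * p s' x z := by
      refine b8.trans ((mul_le_mul b6 c2 (Real.sqrt_nonneg _) (by positivity)).trans
        (le_of_eq ?_))
      rw [← hc]
      have e2 : Real.exp (-(dist x z ^ 2 / (16 * A * s))) * Real.exp (dist x z ^ 2 / (16 * A * s))
          = 1 := by rw [← Real.exp_add, neg_add_cancel, Real.exp_zero]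
      calc c * (Real.exp (-(dist x z ^ 2 / (16 * A * s))) * p s' x z) *
            (D * Real.exp (dist x z ^ 2 / (16 * A * s)))
          = c * D * p s' x z * (Real.exp (-(dist x z ^ 2 / (16 * A * s))) *
            Real.exp (dist x z ^ 2 / (16 * A * s))) := by ring
        _ = _ := by rw [e2, mul_one]
    calc |F z| * |(sob m).Γ φ f z| ≤ |F z| * (c * D * p s' x z) :=
          mul_le_mul_of_nonneg_left c3 (abs_nonneg _)
      _ = _ := by ring
  have e3 : PP m p s x ((sob m).Γ f f) = I (φ * (sob m).Γ f f) := rfl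
  rw [e3, hkey]
  have a1 := neg_abs_le (I (φ * (F * (sob m).lap f)))
  have a2 := neg_abs_le (I (F * (sob m).Γ φ f))
  linarith

/-- Jensen -/
theorem PP_abs_le_sqrt (h : Env m n K o A p) (hs : 0 < s) (x : M) (hG : MemLp G 2 m) :
    |PP m p s x G| ≤ √(PP m p s x (G ^ 2)) := by
  have h1 := PP_cs h hs x (F := 1) mem_top_one hG
  rw [one_mul] at h1
  have e : ((1 : M →ₘ[m] ℝ) ^ 2) = 1 := one_pow 2
  rw [e, PP_one h.ker hs x, Real.sqrt_one, one_mul] at h1
  exact h1

/-- the average of `f` changes slowly in time if `Δ f` is small -/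
theorem PP_time_sub (h : Env m n K o A p) (hf : f ∈ (sob m).Test) (hs : 0 < s) (hss : s ≤ s')
    (x : M) {B : ℝ} (hB : ∀ r ∈ Icc s s', PP m p r x ((sob m).lap f ^ 2) ≤ B ^ 2) (hB0 : 0 ≤ B) :
    |PP m p s' x f - PP m p s x f| ≤ B * (s' - s) := by
  have hC := env_gamma h
  have fA := hC.test_A hf
  have f2 := hC.memLp _ fA.1
  have hl := hC.test_isLap hf
  have hd : ∀ r ∈ Icc s s', HasDerivWithinAt (fun r => PP m p r x f)
      (PP m p r x ((sob m).lap f)) (Icc s s') r := by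
    intro r hr
    have hr0 : 0 < r := hs.trans_le hr.1
    have h1 := hasDerivAt_ph hC.toIsDir h.ker hr0 x f2
    rw [← I_ph_lap hC.toIsDir h.ker hr0 x hl] at h1
    exact h1.hasDerivWithinAt
  have hb : ∀ r ∈ Icc s s', ‖PP m p r x ((sob m).lap f)‖ ≤ B := by
    intro r hr
    have hr0 : 0 < r := hs.trans_le hr.1
    rw [Real.norm_eq_abs]
    refine (PP_abs_le_sqrt h hr0 x hl.2.1).trans ?_
    exact (Real.sqrt_le_sqrt (hB r hr)).trans (le_of_eq (Real.sqrt_sq hB0))
  have := (convex_Icc s s').norm_image_sub_le_of_norm_hasDerivWithin_le hd hb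
    (left_mem_Icc.2 hss) (right_mem_Icc.2 hss)
  rwa [Real.norm_eq_abs, Real.norm_eq_abs, abs_of_nonneg (sub_nonneg.2 hss)] at this

theorem PP_abs (h : Env m n K o A p) (hs : 0 < s) (x : M) (hF : MemLp F ∞ m) :
    |PP m p s x F| ≤ PP m p s x |F| := by
  have hp := h.ker
  rw [PP_eq_pt hp hs, PP_eq_pt hp hs]
  refine (abs_pt_le hp hs x F).trans (le_of_eq ?_)
  refine pt_congr hp ?_ s x
  filter_upwards [H200.abs_ae' F] with z hz
  rw [hz]

/-- **(nd)**: nondegeneracy of `f` with `Γ(f,f) ~ G` at the scale `√s` -/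
theorem nd_at (h : Env m n K o A p) {Cg : ℝ} (hCg : 1 ≤ Cg) :
    ∃ c₀ > 0, ∃ e₀ > 0, ∀ (f : M →ₘ[m] ℝ), f ∈ (sob m).Test → ∀ (x : M), dist x o ≤ 1 →
      ∀ s, 0 < s → 512 * A ^ 2 * s ≤ 1 / 2 → |K| * s ≤ 1 / 4 → ∀ G, 0 ≤ G →
      G / 2 ≤ PP m p s x ((sob m).Γ f f) → PP m p s x ((sob m).Γ f f) ≤ 2 * G →
      (∀ r ∈ Icc s (512 * A ^ 2 * s), PP m p r x ((sob m).lap f ^ 2) ≤ e₀ ^ 2 / s * G) →
      (∀ᵐ z ∂m, (sob m).Γ f f z ≤ Cg * Real.exp (dist x z ^ 2 / (8 * A * s)) * G) →
      ∀ b : ℝ, c₀ * √s * √G ≤ PP m p (512 * A ^ 2 * s) x |f - b • 1| := by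
  have hC := env_gamma h
  have hA1 := h.kb.one_le
  have hA0 := h.kb.pos
  have hA2 : 1 ≤ A ^ 2 := one_le_pow₀ hA1
  have hcK : 0 < cK n A (512 * A ^ 2) 0 := cK_pos h.kb.one_le (by positivity)
  set c₁ : ℝ := Real.exp |K| * (cK n A (512 * A ^ 2) 0 * Real.exp (32 * A)) * √Cg with hc₁
  have hc₁0 : 0 < c₁ := by positivity
  set e₀ : ℝ := 1 / (12 * (512 * A ^ 2)) with he₀
  have he₀0 : 0 < e₀ := by positivity
  have he₀1 : e₀ ≤ 1 / 12 := by
    rw [he₀]
    refine one_div_le_one_div_of_le (by norm_num) (by nlinarith)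
  clear_value e₀
  refine ⟨min (1 / 2) (1 / (4 * c₁)), lt_min (by norm_num) (by positivity), e₀, he₀0, ?_⟩
  intro f hf x hx s hs hs1 hKs G hG hG1 hG2 hlap hgr b
  have fA := hC.test_A hf
  have f2 := hC.memLp _ fA.1
  set s' : ℝ := 512 * A ^ 2 * s with hs'd
  have hss : s ≤ s' := by rw [hs'd]; nlinarith
  have hs' : 0 < s' := hs.trans_le hss
  have q0 : 0 < √s := Real.sqrt_pos.2 hs
  have qs : √s ^ 2 = s := Real.sq_sqrt hs.le
  have g0 : 0 ≤ √G := Real.sqrt_nonneg _
  have gs : √G ^ 2 = G := Real.sq_sqrt hG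
  have hFt : MemLp (f - b • 1 : M →ₘ[m] ℝ) ∞ m := mem_sub fA.2 (mem_smul _ mem_top_one)
  set X := PP m p s' x |f - b • 1| with hX
  have hX0 : 0 ≤ X := (abs_nonneg _).trans (PP_abs h hs' x hFt)
  set a := PP m p s x f with ha
  rcases le_or_gt |a - b| (√s * √G) with hab | hab
  · -- main case
    have hlap0 : √(PP m p s x ((sob m).lap f ^ 2)) ≤ e₀ / √s * √G := by
      have h1 := hlap s (left_mem_Icc.2 hss)
      refine (Real.sqrt_le_sqrt h1).trans (le_of_eq ?_)
      have : e₀ ^ 2 / s * G = (e₀ / √s * √G) ^ 2 := by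
        rw [mul_pow, div_pow, qs, gs]
      rw [this, Real.sqrt_sq (by positivity)]
    have hvar : PP m p s x ((f - b • 1) ^ 2) ≤ (3 * (√s * √G)) ^ 2 := by
      rw [PP_sub_sq h.ker hs x f2 fA.2]
      have h1 := PP_var h hs hf x
      have h2 : Real.exp (2 * |K| * s) ≤ 2 := by
        have h3 : Real.exp (2 * |K| * s) ≤ Real.exp (1 / 2) := Real.exp_le_exp.2 (by linarith)
        refine h3.trans ?_
        have h4 : Real.exp (1 / 2) ^ 2 ≤ 2 ^ 2 := by
          rw [← Real.exp_nat_mul]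
          norm_num
          linarith [Real.exp_one_lt_d9]
        exact le_of_sq_le_sq h4 (by norm_num)
      have h5 : 2 * s * Real.exp (2 * |K| * s) * PP m p s x ((sob m).Γ f f) ≤ 2 * s * 2 * (2 * G) := by
        have : 0 ≤ PP m p s x ((sob m).Γ f f) := by linarith
        gcongr
      have h6 : (a - b) ^ 2 ≤ (√s * √G) ^ 2 := by
        rw [← sq_abs]; exact pow_le_pow_left₀ (abs_nonneg _) hab 2
      have h7 : (√s * √G) ^ 2 = s * G := by rw [mul_pow, qs, gs]
      have h8 : (3 * (√s * √G)) ^ 2 = 9 * (s * G) := by rw [mul_pow, h7]; norm_num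
      rw [h8]
      rw [h7] at h6
      have h9 : PP m p s x (f ^ 2) - 2 * b * a + b ^ 2 = (PP m p s x (f ^ 2) - a ^ 2) + (a - b) ^ 2 := by
        ring
      rw [h9]
      linarith
    have hD : ∀ᵐ z ∂m, (sob m).Γ f f z ≤
        ((√Cg * √G) * Real.exp (dist x z ^ 2 / (16 * A * s))) ^ 2 := by
      filter_upwards [hgr] with z hz
      refine hz.trans (le_of_eq ?_)
      rw [mul_pow, mul_pow, Real.sq_sqrt (by linarith : 0 ≤ Cg), gs, ← Real.exp_nat_mul]
      have : ((2 : ℕ) : ℝ) * (dist x z ^ 2 / (16 * A * s)) = dist x z ^ 2 / (8 * A * s) := by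
        push_cast; field_simp; ring
      rw [this]
      ring
    have key := nd_core h hf hs hs'd.symm hs1 x (by positivity) hD b
    have hex : Real.exp (32 * A * dist x o) ≤ Real.exp (32 * A) :=
      Real.exp_le_exp.2 (by nlinarith)
    have k1 : √(PP m p s x ((f - b • 1) ^ 2)) * √(PP m p s x ((sob m).lap f ^ 2)) ≤
        3 * e₀ * G := by
      have h1 : √(PP m p s x ((f - b • 1) ^ 2)) ≤ 3 * (√s * √G) := by
        rw [← Real.sqrt_sq (show 0 ≤ 3 * (√s * √G) by positivity)]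
        exact Real.sqrt_le_sqrt hvar
      refine (mul_le_mul h1 hlap0 (Real.sqrt_nonneg _) (by positivity)).trans (le_of_eq ?_)
      field_simp
      rw [gs]
    have k2 : Real.exp |K| / √s * (cK n A (512 * A ^ 2) 0 * Real.exp (32 * A * dist x o)) *
        (√Cg * √G) * X ≤ c₁ / √s * √G * X := by
      rw [hc₁]
      have : Real.exp |K| / √s * (cK n A (512 * A ^ 2) 0 * Real.exp (32 * A * dist x o)) *
          (√Cg * √G) ≤ Real.exp |K| / √s * (cK n A (512 * A ^ 2) 0 * Real.exp (32 * A)) *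
          (√Cg * √G) := by gcongr
      refine (mul_le_mul_of_nonneg_right this hX0).trans (le_of_eq ?_)
      ring
    have k3 : G / 2 ≤ 3 * e₀ * G + c₁ / √s * √G * X := by linarith
    have k4 : 3 * e₀ * G ≤ G / 4 := by nlinarith
    have k5 : G / 4 ≤ c₁ / √s * √G * X := by linarith
    rcases hG.eq_or_lt with h0 | h0
    · rw [← h0, Real.sqrt_zero, mul_zero]; exact hX0
    · have gp : 0 < √G := Real.sqrt_pos.2 h0
      have k6 : √s * √G / 4 ≤ c₁ * X := by
        have e1 : G / 4 = (√G / √s) * (√s * √G / 4) := by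
          field_simp
          rw [gs]
        have e2 : c₁ / √s * √G * X = (√G / √s) * (c₁ * X) := by ring
        rw [e1, e2] at k5
        exact le_of_mul_le_mul_left k5 (by positivity)
      calc min (1 / 2) (1 / (4 * c₁)) * √s * √G ≤ 1 / (4 * c₁) * √s * √G := by
            gcongr
            exact min_le_right _ _
        _ = c₁⁻¹ * (√s * √G / 4) := by field_simp
        _ ≤ c₁⁻¹ * (c₁ * X) := mul_le_mul_of_nonneg_left k6 (by positivity)
        _ = X := by field_simp
  · -- the mean is far from `b`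
    have h1 := PP_time_sub h hf hs hss x (B := e₀ / √s * √G) (fun r hr => by
      refine (hlap r hr).trans (le_of_eq ?_)
      rw [mul_pow, div_pow, qs, gs]) (by positivity)
    have h2 : e₀ / √s * √G * (s' - s) ≤ (1 / 12) * (√s * √G) := by
      have e1 : s' - s ≤ s' := by linarith
      have e2 : e₀ * s' = s / 12 := by
        rw [he₀, hs'd]; field_simp
      calc e₀ / √s * √G * (s' - s) ≤ e₀ / √s * √G * s' := by gcongr
        _ = (e₀ * s') / √s * √G := by ring
        _ = s / 12 / √s * √G := by rw [e2]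
        _ = (1 / 12) * (s / √s * √G) := by ring
        _ = (1 / 12) * (√s * √G) := by rw [Real.div_sqrt]
    have h3 := PP_abs h hs' x hFt
    have h4 : PP m p s' x (f - b • 1) = PP m p s' x f - b := by
      have e : (f - b • (1 : M →ₘ[m] ℝ)) = f + (-b) • 1 := by module
      rw [e, PP_add h.ker hs' x (PP_int_top h.ker hs' x fA.2)
        (PP_int_top h.ker hs' x (mem_smul _ mem_top_one)), PP_smul, PP_one h.ker hs' x]
      ring
    rw [h4] at h3
    have h5 : |a - b| ≤ |PP m p s' x f - b| + |PP m p s' x f - a| := by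
      have := abs_sub_le a (PP m p s' x f) b
      rw [abs_sub_comm a (PP m p s' x f)] at this
      linarith
    calc min (1 / 2) (1 / (4 * c₁)) * √s * √G ≤ 1 / 2 * √s * √G := by
          gcongr
          exact min_le_left _ _
      _ = 1 / 2 * (√s * √G) := by ring
      _ ≤ X := by
          have : 0 ≤ √s * √G := by positivity
          linarith

end nd

end Vale.Agent.P242.H751
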