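import Vale.Agent.P242.H751.Uc
import Vale.Agent.P242.H881.Grad2

/-! P242 (helper751): local Poincaré inequality (variance of the heat kernel) at every point. -/

set_option linter.all false

open MeasureTheory Filter Topology Set Metric
open scoped ENNReal NNReal MeasureTheory InnerProductSpace

universe u

namespace Vale.Agent.P242.H751

open Vale.Agent.P233 Vale.Agent.P233.RA Vale.Agent.P242.H71 Vale.Agent.P242.H990

section var

variable {M : Type u} [MetricSpace M] [CompleteSpace M] [SecondCountableTopology M]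
  [MeasurableSpace M] [BorelSpace M] {m : Measure M} {n : ℕ} {K : ℝ} {o : M} {A : ℝ}
  {p : ℝ → M → M → ℝ} {s : ℝ} {f F : M →ₘ[m] ℝ}

theorem PP_eq_pt (hp : H520.Ker0 m p) (hs : 0 < s) (x : M) (F : M →ₘ[m] ℝ) :
    PP m p s x F = H520.pt m p s F x := I_ph_mul hp hs x F

theorem continuous_PP (hp : H520.Ker0 m p) (hs : 0 < s) (hF : MemLp F 2 m) :
    Continuous fun x => PP m p s x F := by
  have : (fun x => PP m p s x F) = H520.pt m p s F := by
    funext x; exact PP_eq_pt hp hs x F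
  rw [this]
  exact hp.contf s hs F hF

theorem PP_ae (hp : H520.Ker0 m p) (hs : 0 < s) (hF : MemLp F 2 m) :
    ∀ᵐ x ∂m, (sob m).P s F x = PP m p s x F := by
  filter_upwards [hp.rep s hs F hF] with x hx
  rw [hx, PP_eq_pt hp hs x F]

/-- **Local Poincaré inequality** at every point -/
theorem PP_var (h : Env m n K o A p) (hs : 0 < s) (hf : f ∈ (sob m).Test) (x : M) :
    PP m p s x (f ^ 2) - PP m p s x f ^ 2 ≤
      2 * s * Real.exp (2 * |K| * s) * PP m p s x ((sob m).Γ f f) := by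
  have hC := env_gamma h
  have hB := env_bei h
  have hp := h.ker
  have := h.hyp.full
  have fA := hC.test_A hf
  have f2 : MemLp f 2 m := hC.memLp _ fA.1
  have hft := fA.2
  have hΓt := hC.test_Γ_top hf
  have hΓ : MemLp ((sob m).Γ f f) 2 m := hC.toIsDir.Γ_mem2 fA.1 hΓt fA.1
  have hsq : MemLp (f ^ 2 : M →ₘ[m] ℝ) 2 m := by
    rw [sq]; exact mem_mul_top hft f2
  have key := H881.local_poincare hC hB hs fA.1 hft hΓ
  refine le_of_ae_le (m := m) (u := fun x => PP m p s x (f ^ 2) - PP m p s x f ^ 2)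
    (v := fun x => 2 * s * Real.exp (2 * |K| * s) * PP m p s x ((sob m).Γ f f)) ?_ ?_ ?_ x
  · exact (continuous_PP hp hs hsq).sub ((continuous_PP hp hs f2).pow 2)
  · exact continuous_const.mul (continuous_PP hp hs hΓ)
  · filter_upwards [key, PP_ae hp hs hsq, PP_ae hp hs f2, PP_ae hp hs hΓ] with y h1 h2 h3 h4
    rw [← h2, ← h3, ← h4]
    exact h1

theorem PP_one (hp : H520.Ker0 m p) (hs : 0 < s) (x : M) : PP m p s x 1 = 1 := by
  unfold PP
  rw [mul_one, I_ph hp hs x]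

/-- second moment -/
theorem PP_sub_sq (hp : H520.Ker0 m p) (hs : 0 < s) (x : M) (hf : MemLp f 2 m)
    (hft : MemLp f ∞ m) (a : ℝ) :
    PP m p s x ((f - a • 1) ^ 2) = PP m p s x (f ^ 2) - 2 * a * PP m p s x f + a ^ 2 := by
  have e : (f - a • (1 : M →ₘ[m] ℝ)) ^ 2 = f ^ 2 + ((-(2 * a)) • f + a ^ 2 • 1) := by
    rw [eq_iff_ae]
    filter_upwards [sq_ae (f - a • (1 : M →ₘ[m] ℝ)), sub_ae f (a • (1 : M →ₘ[m] ℝ)),
      smul_ae (1 : M →ₘ[m] ℝ) a, one_ae (M := M) (m := m), sq_ae f,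
      add_ae (f ^ 2) ((-(2 * a)) • f + a ^ 2 • (1 : M →ₘ[m] ℝ)),
      add_ae ((-(2 * a)) • f) (a ^ 2 • (1 : M →ₘ[m] ℝ)), smul_ae f (-(2 * a)),
      smul_ae (1 : M →ₘ[m] ℝ) (a ^ 2)] with y h1 h2 h3 h4 h5 h6 h7 h8 h9
    rw [h1, h2, h3, h4, h6, h5, h7, h8, h9, h4]
    ring
  have hsqt : MemLp (f ^ 2 : M →ₘ[m] ℝ) ∞ m := by
    rw [sq]; exact mem_mul_top hft hft
  have h1t : MemLp (1 : M →ₘ[m] ℝ) ∞ m := (memLp_congr_ae one_ae).2 (memLp_top_const 1)
  rw [e, PP_add hp hs x (PP_int_top hp hs x hsqt) (PP_int_top hp hs x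
    (mem_add (mem_smul _ hft) (mem_smul _ h1t))),
    PP_add hp hs x (PP_int_top hp hs x (mem_smul _ hft)) (PP_int_top hp hs x (mem_smul _ h1t)),
    PP_smul, PP_smul, PP_one hp hs x]
  ring

/-- **(ss)**: second moment about the mean -/
theorem PP_mean_sq (h : Env m n K o A p) (hs : 0 < s) (hf : f ∈ (sob m).Test) (x : M) :
    PP m p s x ((f - PP m p s x f • 1) ^ 2) ≤
      2 * s * Real.exp (2 * |K| * s) * PP m p s x ((sob m).Γ f f) := by
  have hC := env_gamma h
  have fA := hC.test_A hf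
  rw [PP_sub_sq h.ker hs x (hC.memLp _ fA.1) fA.2]
  have := PP_var h hs hf x
  nlinarith

/-- **(ss)** for the maps `u_c` -/
theorem uc_mean_sq (h : Env m n K o A p) {R Q η ρ : ℝ} {u : Fin n → M →ₘ[m] ℝ} {uu : M → E n}
    (hu : Cfg m n K o p R Q η ρ u uu) (hs : 0 < s) (c : E n) (x : M) :
    PP m p s x ((uc u c - PP m p s x (uc u c) • 1) ^ 2) ≤
      2 * s * Real.exp (2 * |K| * s) * Gm m p u s x c c :=
  PP_mean_sq h hs (uc_test (env_gamma h) hu c) x

end var

end Vale.Agent.P242.H751
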