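import Vale.Agent.P242.H751.Up2
import Vale.Agent.P242.H881.KBmk
import Vale.Agent.P242.H266.LowKer
import Vale.Agent.P242.H992.Lib

/-! P242 (helper751): the complete structure `KB` (Gaussian bounds of the heat kernel) for a space
with `CD.Hyp m n K` and its heat kernel `Ker0 m p`. -/

set_option linter.all false

open MeasureTheory Filter Topology Set Metric
open scoped ENNReal NNReal MeasureTheory

universe u

namespace Vale.Agent.P242.H751

open Vale.Agent.P233 Vale.Agent.P233.RA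

variable {M : Type u} [MetricSpace M] [CompleteSpace M] [MeasurableSpace M] [BorelSpace M]
  [SecondCountableTopology M] {m : Measure M} {n : ℕ} {K : ℝ} {p : ℝ → M → M → ℝ}

/-- the field `upper` of `KB` -/
theorem upper_KB (h : CD.Hyp m n K) (k : H520.Ker0 m p) (o : M) :
    ∃ A : ℝ, 1 ≤ A ∧ ∀ s, 0 < s → s ≤ 1 / 2 → ∀ x z,
      p s x z ≤ A * Real.exp (A * dist x o) * (√s ^ n)⁻¹ *
        Real.exp (-(dist x z ^ 2 / (A * s))) := by
  obtain ⟨θ, hN⟩ := H992.nsp2 h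
  obtain ⟨A, hA, hup⟩ := up (H992.geoN h) hN k o
  exact ⟨A, hA, fun s hs hs1 x z => hup s hs (by linarith) x z⟩

/-- **Gaussian bounds of the heat kernel** -/
theorem kb (h : CD.Hyp m n K) (k : H520.Ker0 m p) (o : M) (A₀ : ℝ) :
    ∃ A : ℝ, A₀ ≤ A ∧ H990.KB n o A p := by
  obtain ⟨A, hA, hup⟩ := upper_KB h k o
  obtain ⟨θ, hN⟩ := H992.nsp2 h
  have hlow : ∀ A', max A₀ (H266.cLow n K (2 ^ n)) ≤ A' → ∀ s, 0 < s → s ≤ 1 / 2 → ∀ x z,
      A'⁻¹ * Real.exp (-(A' * dist x o)) * (√s ^ n)⁻¹ * Real.exp (-(A' * dist x z ^ 2 / s)) ≤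
        p s x z := by
    intro A' hA'
    obtain rfl := h.haus
    exact H266.lower_KB hN k ((le_max_right _ _).trans hA') o
  obtain ⟨A', h1, h2, h3⟩ := H881.KB_mk k hA hup hlow
  exact ⟨A', (le_max_left _ _).trans h2, h3⟩

/-- **(K6)** for `CD.Hyp` -/
theorem tail_cd (h : CD.Hyp m n K) (k : H520.Ker0 m p) (L : ℝ) (hL : 0 ≤ L) :
    ∃ C : ℝ, 1 ≤ C ∧ ∀ s, 0 < s → s ≤ 1 → ∀ (x : M) (R : ℝ), 0 ≤ R →
      Integrable (fun w => p s x w * Real.exp (L * (dist x w / √s))) m ∧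
      ∫ w in {w | R ≤ dist x w}, p s x w * Real.exp (L * (dist x w / √s)) ∂m ≤
        C * Real.exp (-(R ^ 2 / (32 * s))) := by
  obtain ⟨θ, hN⟩ := H992.nsp2 h
  exact tail_exp (H992.geoN h) hN k L hL

end Vale.Agent.P242.H751
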