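import Vale.Agent.P242.H751.KBall
import Vale.Agent.P242.H71.Voc
import Vale.Agent.P242.H992.KerG

/-! P242 (helper751): block `Blk_F` (heat kernel with Gaussian bounds) from `Blk_Ker0`, and the
library facts for `Env`. -/

set_option linter.all false

open MeasureTheory Filter Topology Set Metric
open scoped ENNReal NNReal MeasureTheory

universe u

namespace Vale.Agent.P242.H751

open Vale.Agent.P233 Vale.Agent.P233.RA

section

variable {M : Type u} [MetricSpace M] [MeasurableSpace M] [BorelSpace M] {m : Measure M} {n : ℕ}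
  {K : ℝ} {o : M} {A : ℝ} {p : ℝ → M → M → ℝ}

theorem hyp_of (h : H71.HypL m n K) : CD.Hyp m n K := ⟨h.two_le, h.haus, h.full, h.rcd⟩

end

section env

variable {M : Type u} [MetricSpace M] [CompleteSpace M] [SecondCountableTopology M]
  [MeasurableSpace M] [BorelSpace M] {m : Measure M} {n : ℕ} {K : ℝ} {o : M} {A : ℝ}
  {p : ℝ → M → M → ℝ}

theorem env_geoN (h : H71.Env m n K o A p) : RG.GeoN m n := H992.geoN (hyp_of h.hyp)

theorem env_nsp2 (h : H71.Env m n K o A p) : ∃ θ : M → ℝ, N2.NSp2 m n K θ :=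
  H992.nsp2 (hyp_of h.hyp)

theorem env_std (h : H71.Env m n K o A p) : Std m K n := H992.std (hyp_of h.hyp)

theorem env_be (h : H71.Env m n K o A p) : (sob m).BE K n := H992.be (hyp_of h.hyp)

theorem env_heat (h : H71.Env m n K o A p) : Heat (sob m) K (sob m).P := H992.heat (hyp_of h.hyp)

theorem env_gamma (h : H71.Env m n K o A p) : IsGamma (sob m) := by
  obtain ⟨θ, hN⟩ := env_nsp2 h
  exact hN.isGamma

theorem env_bei (h : H71.Env m n K o A p) : (sob m).BEi K :=
  (env_gamma h).bei (by have := h.hyp.two_le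
                        exact_mod_cast (by omega : 0 < n)) (env_be h)

theorem env_s2l (h : H71.Env m n K o A p) : RG.S2L m := H992.s2l (hyp_of h.hyp)

end env

/-- **Block F** from the existence of the heat kernel -/
theorem blk_F (hK : H520.Blk_Ker0.{u}) : H71.Blk_F.{u} := by
  intro M _ _ _ _ _ m n K o h
  obtain ⟨p, hp⟩ := hK M m K n (H992.std (hyp_of h))
  obtain ⟨A, -, hA⟩ := kb (hyp_of h) hp o 0
  exact ⟨A, p, h, hp, hA⟩

theorem blk_F' : H71.Blk_F.{u} := blk_F H992.blk_Ker0

end Vale.Agent.P242.H751
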