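import Vale.Agent.P242.H751.Nd
import Vale.Agent.P242.H597.Pre3
import Vale.Agent.P242.H924.Uc
import Vale.Agent.P242.H155.Tx
import Vale.Agent.P242.H990.Far

/-! P242 (helper751): comparison of the forms `G_s(x)` at one centre under the transformation
estimate, and the almost everywhere growth bound of `Γ(u_c,u_c)` around a centre. -/

set_option linter.all false

open MeasureTheory Filter Topology Set Metric
open scoped ENNReal NNReal MeasureTheory InnerProductSpace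

universe u

namespace Vale.Agent.P242.H751

open Vale.Agent.P233 Vale.Agent.P233.RA Vale.Agent.P242.H71 Vale.Agent.P242.H990

/-! ### the differential inequality -/

section ode

variable {g g' : ℝ → ℝ} {t T a E : ℝ}

/-- `g' ≤ (a/s) g + E` with `a ≤ 1/2` -/
theorem ode_up (ht : 0 < t) (ha : 0 ≤ a) (ha2 : a ≤ 1 / 2) (hE : 0 ≤ E)
    (hd : ∀ s, t ≤ s → s ≤ T → HasDerivAt g (g' s) s)
    (hb : ∀ s, t ≤ s → s ≤ T → g' s ≤ a / s * g s + E) {s s' : ℝ} (hs : t ≤ s) (hss : s ≤ s')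
    (hs' : s' ≤ T) : g s' ≤ (s' / s) ^ a * g s + 2 * E * s' := by
  have hs0 : 0 < s := ht.trans_le hs
  have hs0' : 0 < s' := hs0.trans_le hss
  have hder : ∀ r ∈ Icc s s', HasDerivAt (fun r => r ^ (-a) * (g r - 2 * E * r))
      (-a * r ^ (-a - 1) * (g r - 2 * E * r) + r ^ (-a) * (g' r - 2 * E)) r := by
    intro r hr
    have hr0 : 0 < r := hs0.trans_le hr.1
    have h1 : HasDerivAt (fun r : ℝ => r ^ (-a)) (-a * r ^ (-a - 1)) r :=
      Real.hasDerivAt_rpow_const (Or.inl hr0.ne')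
    have h2 : HasDerivAt (fun r => g r - 2 * E * r) (g' r - 2 * E) r := by
      have h3 := (hasDerivAt_id r).const_mul (2 * E)
      simp only [id, mul_one] at h3
      exact (hd r (hs.trans hr.1) (hr.2.trans hs')).sub h3
    exact h1.mul h2
  have hanti : AntitoneOn (fun r => r ^ (-a) * (g r - 2 * E * r)) (Icc s s') := by
    refine antitoneOn_of_deriv_nonpos (convex_Icc s s')
      (fun r hr => (hder r hr).continuousAt.continuousWithinAt)
      (fun r hr => (hder r (interior_subset hr)).differentiableAt.differentiableWithinAt) ?_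
    intro r hr
    have hr' := interior_subset hr
    have hr0 : 0 < r := hs0.trans_le hr'.1
    rw [(hder r hr').deriv]
    have hb' := hb r (hs.trans hr'.1) (hr'.2.trans hs')
    have e1 : r ^ (-a - 1) = r ^ (-a) / r := by rw [Real.rpow_sub_one hr0.ne']
    rw [e1]
    have e2 : -a * (r ^ (-a) / r) * (g r - 2 * E * r) + r ^ (-a) * (g' r - 2 * E) =
        r ^ (-a) * (g' r - a / r * g r + 2 * a * E - 2 * E) := by
      field_simp
      ring
    rw [e2]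
    have h3 : g' r - a / r * g r + 2 * a * E - 2 * E ≤ 0 := by nlinarith
    exact mul_nonpos_of_nonneg_of_nonpos (Real.rpow_nonneg hr0.le _) h3
  have h := hanti (left_mem_Icc.2 hss) (right_mem_Icc.2 hss) hss
  simp only at h
  have e3 : (s' / s) ^ a = s' ^ a * s ^ (-a) := by
    rw [Real.div_rpow hs0'.le hs0.le, Real.rpow_neg hs0.le]; rfl
  have e4 : s' ^ a * s' ^ (-a) = 1 := by
    rw [← Real.rpow_add hs0', add_neg_cancel, Real.rpow_zero]
  have h5 : s' ^ a * (s' ^ (-a) * (g s' - 2 * E * s')) ≤ s' ^ a * (s ^ (-a) * (g s - 2 * E * s)) :=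
    mul_le_mul_of_nonneg_left h (Real.rpow_nonneg hs0'.le _)
  rw [← mul_assoc, e4, one_mul, ← mul_assoc, ← e3] at h5
  have h6 : 0 ≤ (s' / s) ^ a * (2 * E * s) := by positivity
  nlinarith

theorem real_low {t r N n η : ℝ} (ht : 0 < t) (htr : t ≤ r) (hN : 0 ≤ N) (hn : 1 ≤ n)
    (hη0 : 0 ≤ η) (hnη : n * η ≤ 1 / 256) (hup : g r ≤ (r / t) ^ (1 / 8 : ℝ) * g t + 24 * n * η * N)
    (htop : (1 - η) * N ≤ g r) : (t / r) ^ (1 / 8 : ℝ) * N ≤ 2 * g t := by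
  have hr : 0 < r := ht.trans_le htr
  have hη' : η ≤ 1 / 256 := by
    have : 1 * η ≤ n * η := mul_le_mul_of_nonneg_right hn hη0
    linarith
  have h1 : 24 * n * η * N ≤ 24 * (1 / 256) * N := by
    have : 24 * n * η = 24 * (n * η) := by ring
    rw [this]; gcongr
  have h2 : (1 - 1 / 256) * N ≤ (1 - η) * N := mul_le_mul_of_nonneg_right (by linarith) hN
  have k5 : N / 2 ≤ (r / t) ^ (1 / 8 : ℝ) * g t := by linarith
  have k6 : (t / r) ^ (1 / 8 : ℝ) * (r / t) ^ (1 / 8 : ℝ) = 1 := by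
    rw [← Real.mul_rpow (by positivity) (by positivity)]
    have : t / r * (r / t) = 1 := by field_simp
    rw [this, Real.one_rpow]
  have k7 : (t / r) ^ (1 / 8 : ℝ) * (N / 2) ≤
      (t / r) ^ (1 / 8 : ℝ) * ((r / t) ^ (1 / 8 : ℝ) * g t) :=
    mul_le_mul_of_nonneg_left k5 (by positivity)
  rw [← mul_assoc, k6, one_mul] at k7
  linarith

theorem real_err {t r N n η E₀ : ℝ} (ht : 0 < t) (htr : t ≤ r) (hN : 0 ≤ N) (hn : 0 ≤ n)
    (hη0 : 0 ≤ η) (hE₀ : E₀ = 12 * n * (η / r) * N)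
    (hlow : (t / r) ^ (1 / 8 : ℝ) * N ≤ 2 * g t) : E₀ * t ≤ 24 * n * η * g t := by
  have hr : 0 < r := ht.trans_le htr
  have k1 : t / r ≤ (t / r) ^ (1 / 8 : ℝ) := by
    have h1 : t / r ≤ 1 := by rw [div_le_one (by positivity)]; exact htr
    calc t / r = (t / r) ^ (1 : ℝ) := (Real.rpow_one _).symm
      _ ≤ _ := Real.rpow_le_rpow_of_exponent_ge (by positivity) h1 (by norm_num)
  calc E₀ * t = 12 * n * η * (t / r * N) := by rw [hE₀]; field_simp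
    _ ≤ 12 * n * η * ((t / r) ^ (1 / 8 : ℝ) * N) := by gcongr
    _ ≤ 12 * n * η * (2 * g t) := mul_le_mul_of_nonneg_left hlow (by positivity)
    _ = _ := by ring

theorem real_geq {t s n η E₀ L₂ ε' : ℝ} (ht : 0 < t) (hE₀0 : 0 ≤ E₀) (hL₂ : 1 ≤ L₂)
    (hε0 : 0 ≤ ε') (hnε : L₂ * ε' ≤ 1 / 256) (hnη : n * L₂ * η ≤ 1 / 256) (gt0 : 0 ≤ g t)
    (hEt : E₀ * t ≤ 24 * n * η * g t) (h1 : t ≤ s) (h2 : s ≤ L₂ * t)
    (hup : g s ≤ (s / t) ^ (2 * ε') * g t + 2 * E₀ * s) (hlo : g t ≤ g s + (s - t) * E₀) :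
    g t / 2 ≤ g s ∧ g s ≤ 2 * g t := by
  have hs0 : 0 < s := ht.trans_le h1
  have k0 : E₀ * s ≤ 24 * (n * L₂ * η) * g t := by
    calc E₀ * s ≤ E₀ * (L₂ * t) := mul_le_mul_of_nonneg_left h2 hE₀0
      _ = L₂ * (E₀ * t) := by ring
      _ ≤ L₂ * (24 * n * η * g t) := mul_le_mul_of_nonneg_left hEt (by positivity)
      _ = _ := by ring
  have k0' : E₀ * s ≤ 24 * (1 / 256) * g t := k0.trans (by gcongr)
  constructor
  · have k2 : (s - t) * E₀ ≤ E₀ * s := by nlinarith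
    linarith
  · have k2 : (s / t) ^ (2 * ε') ≤ 3 / 2 := by
      have h3 : s / t ≤ L₂ := by rw [div_le_iff₀ ht]; exact h2
      have h4 : (s / t) ^ (2 * ε') ≤ L₂ ^ (2 * ε') :=
        Real.rpow_le_rpow (by positivity) h3 (by positivity)
      refine h4.trans ?_
      rw [Real.rpow_def_of_pos (by positivity)]
      have h5 : Real.log L₂ * (2 * ε') ≤ 1 / 128 := by
        have h6 : Real.log L₂ ≤ L₂ := (Real.log_le_sub_one_of_pos (by positivity)).trans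
          (by linarith)
        nlinarith
      refine (Real.exp_le_exp.2 h5).trans ?_
      have h7 := Real.exp_bound_div_one_sub_of_interval (x := 1 / 128) (by norm_num) (by norm_num)
      refine h7.trans ?_
      norm_num
    have k3 : (s / t) ^ (2 * ε') * g t ≤ 3 / 2 * g t := mul_le_mul_of_nonneg_right k2 gt0
    linarith

theorem real_harn {t s n η E₀ c₁ ε' ε₁ : ℝ} (ht : 0 < t) (hs : 0 < s) (hst : s < t)
    (hn1 : 1 ≤ n) (hc₁ : 0 < c₁) (hE₀0 : 0 ≤ E₀) (hε0 : 0 ≤ ε') (hε : ε' ≤ ε₁) (hη0 : 0 ≤ η)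
    (hη : η ≤ ε₁) (hεb : 128 * n * (c₁ + 1) * ε₁ ≤ 1) (gt0 : 0 ≤ g t)
    (hEt : E₀ * t ≤ 24 * n * η * g t)
    (hle : g t ≤ g s + (t - s) * (c₁ * (2 * (ε' * g t / t) + E₀))) : g t / 2 ≤ g s := by
  have hn : 0 < n := by linarith
  have hε₁ : 0 ≤ ε₁ := hε0.trans hε
  have k15 : (t - s) * (c₁ * (2 * (ε' * g t / t) + E₀)) ≤
      t * (c₁ * (2 * (ε' * g t / t) + E₀)) :=
    mul_le_mul_of_nonneg_right (by linarith) (by positivity)
  have k16 : t * (c₁ * (2 * (ε' * g t / t) + E₀)) = c₁ * (2 * ε' * g t + E₀ * t) := by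
    field_simp
  have k17 : c₁ * (2 * ε' * g t + E₀ * t) ≤ c₁ * (2 * ε' * g t + 24 * n * η * g t) := by
    gcongr
  have k18 : c₁ * (2 * ε' * g t + 24 * n * η * g t) ≤ 26 * (n * (c₁ + 1) * ε₁) * g t := by
    have h3 : c₁ * (2 * ε' + 24 * n * η) ≤ 26 * (n * (c₁ + 1) * ε₁) := by
      have h4 : 2 * ε' + 24 * n * η ≤ 26 * (n * ε₁) := by
        have h5 : 1 * ε' ≤ n * ε₁ := mul_le_mul hn1 hε hε0 hn.le
        have h6 : n * η ≤ n * ε₁ := mul_le_mul_of_nonneg_left hη hn.le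
        linarith
      calc c₁ * (2 * ε' + 24 * n * η) ≤ (c₁ + 1) * (26 * (n * ε₁)) := by
            refine mul_le_mul (by linarith) h4 (by positivity) (by positivity)
        _ = _ := by ring
    have := mul_le_mul_of_nonneg_right h3 gt0
    linarith
  have k19 : n * (c₁ + 1) * ε₁ ≤ 1 / 128 := by linarith
  have k20 : 26 * (n * (c₁ + 1) * ε₁) * g t ≤ 26 * (1 / 128) * g t := by gcongr
  linarith

end ode

section cmp

variable {M : Type u} [MetricSpace M] [CompleteSpace M] [SecondCountableTopology M]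
  [MeasurableSpace M] [BorelSpace M] {m : Measure M} {n : ℕ} {K : ℝ} {o : M} {A : ℝ}
  {p : ℝ → M → M → ℝ} {s s' t : ℝ} {f g F G : M →ₘ[m] ℝ}

theorem bei_mono {C : Calc m} (hC : IsGamma C) {K K' : ℝ} (hK : K' ≤ K) (hB : C.BEi K) :
    C.BEi K' := by
  intro f h φ ψ h1 h2 h3 h4 h5 h6
  refine le_trans ?_ (hB f h φ ψ h1 h2 h3 h4 h5 h6)
  have hfW := h1.1
  refine I_mono (mem_mul_top h5 (mem_add (hC.toIsDir.Γ_mem1 hfW h2)
    (mem_smul _ (hC.mem1 f hfW)))) (mem_mul_top h5 (mem_add (hC.toIsDir.Γ_mem1 hfW h2)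
    (mem_smul _ (hC.mem1 f hfW)))) ?_
  rw [le_iff_ae]
  filter_upwards [mul_ae φ (C.Γ f h + K' • C.Γ f f), mul_ae φ (C.Γ f h + K • C.Γ f f),
    add_ae (C.Γ f h) (K' • C.Γ f f), add_ae (C.Γ f h) (K • C.Γ f f), smul_ae (C.Γ f f) K',
    smul_ae (C.Γ f f) K, nonneg_iff_ae.1 h4, hC.toIsDir.Γ_nonneg_ae hfW] with x a1 a2 a3 a4 a5 a6 a7 a8
  rw [a1, a2, a3, a4, a5, a6]
  have : K' * C.Γ f f x ≤ K * C.Γ f f x := mul_le_mul_of_nonneg_right hK a8
  exact mul_le_mul_of_nonneg_left (by linarith) a7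

theorem env_bein (h : Env m n K o A p) : (sob m).BEi (-|K|) :=
  bei_mono (env_gamma h) (neg_abs_le K) (env_bei h)

theorem env_cen (h : Env m n K o A p) (y : M) :
    Cen (sob m) (fun s => ph m p s y) := H924.cen (env_gamma h) h y

theorem PP_mono (h : Env m n K o A p) (hs : 0 < s) (x : M)
    (hF : MemLp (ph m p s x * F : M →ₘ[m] ℝ) 1 m) (hG : MemLp (ph m p s x * G : M →ₘ[m] ℝ) 1 m)
    (hle : ∀ᵐ z ∂m, F z ≤ G z) : PP m p s x F ≤ PP m p s x G := by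
  unfold PP
  refine I_mono hF hG ?_
  rw [le_iff_ae]
  filter_upwards [mul_ae (ph m p s x) F, mul_ae (ph m p s x) G, hle,
    nonneg_iff_ae.1 (ph_nonneg h.ker hs x)] with z a1 a2 a3 a4
  rw [a1, a2]
  exact mul_le_mul_of_nonneg_left a3 a4

/-- the lower order terms of the derivative of `G_s(x)(c,c)` -/
theorem er_le (h : Env m n K o A p) {R Q η ρ : ℝ} {u : Fin n → M →ₘ[m] ℝ} {uu : M → E n}
    (hu : Cfg m n K o p R Q η ρ u uu) (hη : 0 ≤ η) {z : M} (hz : z ∈ ball o (R * ρ)) (hs : 0 < s)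
    (hsQ : s ≤ Q * ρ ^ 2) (c : E n) :
    H597.Er (sob m) (-|K|) (uc u c) (ph m p s z) ≤ 12 * n * (η / ρ ^ 2) * ‖c‖ ^ 2 := by
  have hC := env_gamma h
  have hD := hC.toIsDir
  have hρ := hu.ρ_pos
  have hn : (0 : ℝ) < n := (H924.facts h.hyp).npos
  have hT := uc_test hC hu c
  have fA := hC.test_A hT
  have hL := hC.test_lap_mem hT
  have g1 := H924.uc_grad h hu c
  have g2 := H924.uc_lap2 h hu c hz hs hsQ
  have hgr : MemLp ((sob m).gr ((sob m).lap (uc u c))) 2 m := H597.gr_mem2 hC hL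
  set D := 2 * √(n : ℝ) * ‖c‖ with hD'
  have hD0 : 0 ≤ D := by positivity
  have i1 : MemLp (ph m p s z * |(sob m).Γ (uc u c) ((sob m).lap (uc u c))| : M →ₘ[m] ℝ) 1 m :=
    mem_mul_top (env_ph_top h hs z) (H597.ab_mem (hD.Γ_mem1 fA.1 hL))
  have i2 : MemLp (ph m p s z * D • (sob m).gr ((sob m).lap (uc u c)) : M →ₘ[m] ℝ) 1 m :=
    mem_mul_22 (ph_mem2 h.ker hs z) (mem_smul _ hgr)
  have e1 : PP m p s z |(sob m).Γ (uc u c) ((sob m).lap (uc u c))| ≤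
      D * (√n * ‖c‖ * (η / ρ ^ 2)) := by
    have k1 := PP_mono h hs z i1 i2 (by
      filter_upwards [H200.abs_ae' ((sob m).Γ (uc u c) ((sob m).lap (uc u c))),
        smul_ae ((sob m).gr ((sob m).lap (uc u c))) D, (sob m).gr_ae ((sob m).lap (uc u c)),
        hD.Γ_abs_ae fA.1 hL, g1] with w b1 b2 b3 b4 b5
      rw [b1, b2, b3]
      refine b4.trans (mul_le_mul_of_nonneg_right ?_ (Real.sqrt_nonneg _))
      exact Real.sqrt_le_iff.2 ⟨hD0, b5⟩)
    rw [PP_smul] at k1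
    refine k1.trans (mul_le_mul_of_nonneg_left ?_ hD0)
    refine (le_abs_self _).trans ((PP_abs_le_sqrt h hs z hgr).trans ?_)
    have e2 : (sob m).gr ((sob m).lap (uc u c)) ^ 2 =
        (sob m).Γ ((sob m).lap (uc u c)) ((sob m).lap (uc u c)) := by
      rw [eq_iff_ae]
      filter_upwards [sq_ae ((sob m).gr ((sob m).lap (uc u c))),
        (sob m).gr_ae ((sob m).lap (uc u c)), hD.Γ_nonneg_ae hL] with w b1 b2 b3
      rw [b1, b2, Real.sq_sqrt b3]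
    rw [e2]
    exact Real.sqrt_le_iff.2 ⟨by positivity, g2⟩
  have e3 : PP m p s z ((sob m).Γ (uc u c) (uc u c)) ≤ D ^ 2 := by
    have k1 := PP_mono h hs z (F := (sob m).Γ (uc u c) (uc u c)) (G := D ^ 2 • 1)
      (PP_int_top h.ker hs z (Γ_top hC hu c c))
      (PP_int_top h.ker hs z (mem_smul _ mem_top_one)) (by
      filter_upwards [g1, smul_ae (1 : M →ₘ[m] ℝ) (D ^ 2), one_ae (M := M) (m := m)]
        with w b1 b2 b3
      rw [b2, b3, mul_one]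
      exact b1)
    rwa [PP_smul, PP_one h.ker hs, mul_one] at k1
  have e4 : |K| ≤ η / ρ ^ 2 := by
    rw [le_div_iff₀ (by positivity)]
    exact hu.Kρ
  have hs1 : √(n : ℝ) * √n = n := Real.mul_self_sqrt hn.le
  unfold H597.Er
  rw [abs_neg, abs_abs]
  change 2 * PP m p s z |(sob m).Γ (uc u c) ((sob m).lap (uc u c))| +
    2 * |K| * PP m p s z ((sob m).Γ (uc u c) (uc u c)) ≤ _
  have e5 : D ^ 2 = 4 * n * ‖c‖ ^ 2 := by
    rw [hD', mul_pow, mul_pow, sq √(n : ℝ), hs1]; ring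
  have e6 : D * (√n * ‖c‖ * (η / ρ ^ 2)) = 2 * n * (η / ρ ^ 2) * ‖c‖ ^ 2 := by
    rw [hD']
    calc 2 * √(n : ℝ) * ‖c‖ * (√n * ‖c‖ * (η / ρ ^ 2)) =
        2 * (√(n : ℝ) * √n) * (η / ρ ^ 2) * ‖c‖ ^ 2 := by ring
      _ = _ := by rw [hs1]
  rw [e5] at e3
  rw [e6] at e1
  have e7 : 2 * |K| * PP m p s z ((sob m).Γ (uc u c) (uc u c)) ≤
      2 * (η / ρ ^ 2) * (4 * n * ‖c‖ ^ 2) := by
    calc 2 * |K| * PP m p s z ((sob m).Γ (uc u c) (uc u c)) ≤ 2 * |K| * (4 * n * ‖c‖ ^ 2) :=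
          mul_le_mul_of_nonneg_left e3 (by positivity)
      _ ≤ _ := mul_le_mul_of_nonneg_right (by linarith) (by positivity)
  nlinarith

/-- the kernel at an earlier time -/
theorem ph_le_ph (h : Env m n K o A p) {Γ : ℝ} (hs : 0 < s) (h1 : 4 * A ^ 2 * s ≤ s')
    (h2 : s' ≤ Γ * s) (h3 : s' ≤ 1 / 2) (x : M) :
    ph m p s x ≤ (cG n A Γ 0 * Real.exp (2 * A * dist x o)) • ph m p s' x := by
  have hA0 := h.kb.pos
  have hs' : 0 < s' := lt_of_lt_of_le (by positivity) h1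
  rw [le_iff_ae]
  filter_upwards [ph_ae h.ker hs x, smul_ae (ph m p s' x) (cG n A Γ 0 * Real.exp (2 * A * dist x o)),
    ph_ae h.ker hs' x] with z b1 b2 b3
  rw [b1, b2, b3]
  exact h.kb.p_le hs h1 h2 h3 (by rw [dist_self]; positivity)

/-- the data of `G_s(x)(c,c)` -/
theorem gm_data (h : Env m n K o A p) {R Q η ρ : ℝ} {u : Fin n → M →ₘ[m] ℝ} {uu : M → E n}
    (hu : Cfg m n K o p R Q η ρ u uu) (hη0 : 0 ≤ η) {x : M} (hx : x ∈ ball o (R * ρ)) (c : E n)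
    {ε' : ℝ} {t : ℝ} (ht : 0 < t) (hT : H155.TTx m K p Q ε' ρ u x t) (hε0 : 0 ≤ ε') :
    (∀ s, 0 < s → 0 ≤ Gm m p u s x c c) ∧ (∀ s, 0 < s → 0 ≤ gm m K p u s x c c) ∧
    (∀ a, 2 * ε' ≤ a → a ≤ 1 / 2 → ∀ s s', t ≤ s → s ≤ s' → s' ≤ Q * ρ ^ 2 →
      Gm m p u s' x c c ≤ (s' / s) ^ a * Gm m p u s x c c
        + 2 * (12 * n * (η / ρ ^ 2) * ‖c‖ ^ 2) * s') ∧
    (∀ s s', 0 < s → s ≤ s' → s' ≤ Q * ρ ^ 2 →
      Gm m p u s x c c ≤ Gm m p u s' x c c + (s' - s) * (12 * n * (η / ρ ^ 2) * ‖c‖ ^ 2)) ∧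
    (∀ s s' Y, 0 < s → s ≤ s' → s' ≤ Q * ρ ^ 2 →
      (∀ r ∈ Ioo s s', H597.Gb (sob m) (-|K|) (uc u c) (ph m p r x) ≤ Y) →
      Gm m p u s' x c c ≤ Gm m p u s x c c + (s' - s) * Y) := by
  have hC := env_gamma h
  have hB := env_bein h
  have hφ := env_cen h x
  have hf := uc_test hC hu c
  have hρ := hu.ρ_pos
  have hn : (0 : ℝ) < n := (H924.facts h.hyp).npos
  set g : ℝ → ℝ := fun s => Gm m p u s x c c with hg
  set E₀ : ℝ := 12 * n * (η / ρ ^ 2) * ‖c‖ ^ 2 with hE₀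
  have hE₀0 : 0 ≤ E₀ := by positivity
  have g0 : ∀ s, 0 < s → 0 ≤ g s := by
    intro s hs
    exact (env_cen h x).av_nonneg hs (hC.nonneg _ (hC.test_A hf).1)
  have hder : ∀ s, 0 < s → HasDerivAt g (2 * gm m K p u s x c c
      + 2 * I (ph m p s x * (sob m).Γ (uc u c) ((sob m).lap (uc u c)))
      + 2 * (-|K|) * I (ph m p s x * (sob m).Γ (uc u c) (uc u c))) s := fun s hs =>
    H597.hasDeriv_avΓ hC hB hφ hf hs
  have hEr : ∀ s, 0 < s → s ≤ Q * ρ ^ 2 →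
      H597.Er (sob m) (-|K|) (uc u c) (ph m p s x) ≤ E₀ := fun s hs hsQ =>
    er_le h hu hη0 hx hs hsQ c
  refine ⟨g0, fun s hs => hC.NN_nonneg hB hf (hφ.memA hC.toIsDir hs) (hφ.nonneg s hs), ?_, ?_, ?_⟩
  · intro a ha ha2 s s' h1 h2 h3
    have ha0 : 0 ≤ a := le_trans (by positivity) ha
    refine ode_up (g := g) (t := t) (T := Q * ρ ^ 2) ht ha0 ha2 hE₀0
      (fun r hr _ => hder r (ht.trans_le hr)) ?_ h1 h2 h3
    intro r hr1 hr2
    have hr0 : 0 < r := ht.trans_le hr1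
    have k1 := hT r hr1 hr2 c
    have k2 := (abs_le.1 (H597.abs_er_le hC hB hφ hf hr0)).2
    have k3 := hEr r hr0 hr2
    have k4 : gm m K p u r x c c ≤ ε' * g r / r := by
      rw [le_div_iff₀ hr0]
      linarith
    have k5 : 2 * (ε' * g r / r) ≤ a / r * g r := by
      have : 2 * (ε' * g r / r) = (2 * ε') * (g r / r) := by ring
      rw [this, show a / r * g r = a * (g r / r) by ring]
      exact mul_le_mul_of_nonneg_right ha (div_nonneg (g0 r hr0) hr0.le)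
    linarith
  · intro s s' h1 h2 h3
    exact H597.av_le hC hB hφ hf h1 h2 fun r hr => hEr r (h1.trans hr.1) (hr.2.le.trans h3)
  · intro s s' Y h1 h2 h3 h4
    exact H597.av_ge hC hB hφ hf h1 h2 h4

/-- Harnack for `Gb` in time -/
theorem gb_harn (h : Env m n K o A p) {L : ℝ} (hf : f ∈ (sob m).Test) {x : M} (hx : dist x o ≤ 1)
    {r t : ℝ} (hr : 0 < r) (hrt : r ≤ t) (htr : t ≤ L * r) (hL : 0 < L)
    (ht2 : 4 * A ^ 2 * t ≤ 1 / 2) {Y : ℝ} (hY : 0 ≤ Y)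
    (hb : H597.Gb (sob m) (-|K|) f (ph m p (4 * A ^ 2 * t) x) ≤ Y) :
    H597.Gb (sob m) (-|K|) f (ph m p r x) ≤ cG n A (4 * A ^ 2 * L) 0 * Real.exp (2 * A) * Y := by
  have hC := env_gamma h
  have hB := env_bein h
  have hφ := env_cen h x
  have hA1 := h.kb.one_le
  have hA0 := h.kb.pos
  have ht : 0 < t := hr.trans_le hrt
  have hs₂0 : 0 < 4 * A ^ 2 * t := by positivity
  have hle := ph_le_ph h (Γ := 4 * A ^ 2 * L) (s := r) (s' := 4 * A ^ 2 * t) hr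
    (mul_le_mul_of_nonneg_left hrt (by positivity)) (by
      rw [mul_assoc (4 * A ^ 2) L]
      exact mul_le_mul_of_nonneg_left htr (by positivity)) ht2 x
  have k11 := H597.Gb_harn hC hB hφ hf (hφ.memA hC.toIsDir hr) (hφ.memA hC.toIsDir hs₂0) hle
  have hcG := cG_pos (n := n) (C₀ := 0) hA1 (by positivity : 0 < 4 * A ^ 2 * L)
  refine k11.trans ?_
  calc cG n A (4 * A ^ 2 * L) 0 * Real.exp (2 * A * dist x o) *
        H597.Gb (sob m) (-|K|) f (ph m p (4 * A ^ 2 * t) x)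
      ≤ cG n A (4 * A ^ 2 * L) 0 * Real.exp (2 * A * dist x o) * Y :=
        mul_le_mul_of_nonneg_left hb (by positivity)
    _ ≤ cG n A (4 * A ^ 2 * L) 0 * Real.exp (2 * A) * Y := by
        have : Real.exp (2 * A * dist x o) ≤ Real.exp (2 * A) := by
          refine Real.exp_le_exp.2 ?_
          calc 2 * A * dist x o ≤ 2 * A * 1 := mul_le_mul_of_nonneg_left hx (by positivity)
            _ = 2 * A := mul_one _
        gcongr

/-- the bound of `Gb` at the time `4 A² t` -/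
theorem gb_top (h : Env m n K o A p) {R Q η ρ : ℝ} {u : Fin n → M →ₘ[m] ℝ} {uu : M → E n}
    (hu : Cfg m n K o p R Q η ρ u uu) (hη0 : 0 ≤ η) {x : M} (hx : x ∈ ball o (R * ρ)) (c : E n)
    {ε' : ℝ} {t : ℝ} (ht : 0 < t) (hT : H155.TTx m K p Q ε' ρ u x t) (hε0 : 0 ≤ ε')
    (hs₂Q : 4 * A ^ 2 * t ≤ Q * ρ ^ 2)
    (hg : Gm m p u (4 * A ^ 2 * t) x c c ≤ 2 * Gm m p u t x c c) :
    H597.Gb (sob m) (-|K|) (uc u c) (ph m p (4 * A ^ 2 * t) x) ≤
      2 * (ε' * Gm m p u t x c c / t) + 12 * n * (η / ρ ^ 2) * ‖c‖ ^ 2 := by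
  have hC := env_gamma h
  have hB := env_bein h
  have hφ := env_cen h x
  have hA1 := h.kb.one_le
  have hA0 := h.kb.pos
  have hA2 : 1 ≤ A ^ 2 := one_le_pow₀ hA1
  have k6 : 4 * t ≤ 4 * A ^ 2 * t := mul_le_mul_of_nonneg_right (by linarith) ht.le
  have hs₂0 : 0 < 4 * A ^ 2 * t := by positivity
  have hf := uc_test hC hu c
  have k0 : 0 ≤ gm m K p u (4 * A ^ 2 * t) x c c :=
    hC.NN_nonneg hB hf (hφ.memA hC.toIsDir hs₂0) (hφ.nonneg _ hs₂0)
  have k1 : gm m K p u (4 * A ^ 2 * t) x c c ≤ ε' * Gm m p u t x c c / t := by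
    have k2 := hT (4 * A ^ 2 * t) (by linarith) hs₂Q c
    rw [le_div_iff₀ ht]
    have k4 : 4 * A ^ 2 * t * gm m K p u (4 * A ^ 2 * t) x c c ≤ ε' * (2 * Gm m p u t x c c) :=
      k2.trans (mul_le_mul_of_nonneg_left hg hε0)
    have k7 : 4 * t * gm m K p u (4 * A ^ 2 * t) x c c ≤
        4 * A ^ 2 * t * gm m K p u (4 * A ^ 2 * t) x c c := mul_le_mul_of_nonneg_right k6 k0
    have k8 : 0 ≤ Gm m p u t x c c :=
      hφ.av_nonneg ht (hC.nonneg _ (hC.test_A hf).1)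
    have k9 : 0 ≤ ε' * Gm m p u t x c c := mul_nonneg hε0 k8
    linarith
  rw [H597.Gb_eq]
  have := er_le h hu hη0 hx hs₂0 hs₂Q c
  have e : (sob m).NN (-|K|) (uc u c) (uc u c) (ph m p (4 * A ^ 2 * t) x) =
    gm m K p u (4 * A ^ 2 * t) x c c := rfl
  rw [e]
  linarith

/-- **Comparison of the forms** `G_s(x)`, `s` comparable to `t`, under the transformation
estimate. -/
theorem cmpX (h : Env m n K o A p) {L : ℝ} (hL : 1 ≤ L) : ∃ ε₁, 0 < ε₁ ∧ ∀ (R Q ε' η ρ : ℝ)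
    (u : Fin n → M →ₘ[m] ℝ) (uu : M → E n), 4 * A ^ 2 * L ≤ Q → 0 ≤ ε' → ε' ≤ ε₁ → 0 ≤ η → η ≤ ε₁ →
    Cfg m n K o p R Q η ρ u uu → ∀ x ∈ ball o (R * ρ), ∀ t, 0 < t → t ≤ ρ ^ 2 →
    H155.TTx m K p Q ε' ρ u x t → ∀ c : E n,
      (t / ρ ^ 2) ^ (1 / 8 : ℝ) * ‖c‖ ^ 2 ≤ 2 * Gm m p u t x c c ∧
      ∀ s, t / L ≤ s → s ≤ L * t →
        Gm m p u t x c c / 2 ≤ Gm m p u s x c c ∧ Gm m p u s x c c ≤ 2 * Gm m p u t x c c := by
  have hA1 := h.kb.one_le
  have hA0 := h.kb.pos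
  have hA2 : 1 ≤ A ^ 2 := one_le_pow₀ hA1
  have hn : (0 : ℝ) < n := (H924.facts h.hyp).npos
  have hn1 : (1 : ℝ) ≤ n := by
    have := h.hyp.two_le
    exact_mod_cast (by omega : 1 ≤ n)
  set L₂ : ℝ := 4 * A ^ 2 * L with hL₂
  have hL₂1 : 1 ≤ L₂ := by nlinarith
  have hLL : L ≤ L₂ := by nlinarith
  set c₁ : ℝ := cG n A L₂ 0 * Real.exp (2 * A) with hc₁
  have hc₁0 : 0 < c₁ := by
    have := cG_pos (n := n) (C₀ := 0) hA1 (by positivity : 0 < L₂)
    positivity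
  obtain ⟨ε₁, hε₁0, hεa, hεb⟩ : ∃ ε₁ : ℝ, 0 < ε₁ ∧ 256 * n * L₂ * ε₁ ≤ 1 ∧
      128 * n * (c₁ + 1) * ε₁ ≤ 1 := by
    refine ⟨min (1 / (256 * n * L₂)) (1 / (128 * n * (c₁ + 1))), by positivity, ?_, ?_⟩
    · refine (mul_le_mul_of_nonneg_left (min_le_left _ _) (by positivity)).trans (le_of_eq ?_)
      field_simp
    · refine (mul_le_mul_of_nonneg_left (min_le_right _ _) (by positivity)).trans (le_of_eq ?_)
      field_simp
  refine ⟨ε₁, hε₁0, ?_⟩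
  intro R Q ε' η ρ u uu hQ hε0 hε hη0 hη hu x hx t ht htρ hT c
  have hρ := hu.ρ_pos
  have hρ2 : 0 < ρ ^ 2 := by positivity
  have hQ1 : 1 ≤ Q := hL₂1.trans hQ
  obtain ⟨g0, gm0, up, lo, ge⟩ := gm_data h hu hη0 hx c ht hT hε0
  set E₀ : ℝ := 12 * n * (η / ρ ^ 2) * ‖c‖ ^ 2 with hE₀
  have hE₀0 : 0 ≤ E₀ := by positivity
  have hnη : n * L₂ * η ≤ 1 / 256 := by
    have h1 : n * L₂ * η ≤ n * L₂ * ε₁ := mul_le_mul_of_nonneg_left hη (by positivity)
    linarith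
  have hnη' : n * η ≤ 1 / 256 := by
    have : n * η * 1 ≤ n * η * L₂ := mul_le_mul_of_nonneg_left hL₂1 (by positivity)
    linarith
  have hnε : L₂ * ε' ≤ 1 / 256 := by
    have h1 : L₂ * ε' ≤ L₂ * ε₁ := mul_le_mul_of_nonneg_left hε (by positivity)
    have h2 : 1 * (L₂ * ε₁) ≤ n * (L₂ * ε₁) := mul_le_mul_of_nonneg_right hn1 (by positivity)
    linarith
  have hε'1 : ε' ≤ 1 / 256 := by nlinarith
  have hQρ : ρ ^ 2 ≤ Q * ρ ^ 2 := by nlinarith
  have hlow : (t / ρ ^ 2) ^ (1 / 8 : ℝ) * ‖c‖ ^ 2 ≤ 2 * Gm m p u t x c c := by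
    refine real_low (g := fun s => Gm m p u s x c c) ht htρ (sq_nonneg _) hn1 hη0 hnη' ?_ ?_
    · have k1 := up (1 / 8) (by linarith) (by norm_num) t (ρ ^ 2) le_rfl htρ hQρ
      have k4 : 2 * E₀ * ρ ^ 2 = 24 * n * η * ‖c‖ ^ 2 := by
        rw [hE₀]; field_simp; ring
      rwa [k4] at k1
    · have k2 := hu.gram x hx (ρ ^ 2) (by rw [div_le_iff₀ (by positivity)]; nlinarith) hQρ c c
      rw [real_inner_self_eq_norm_sq] at k2
      have := (abs_le.1 k2).1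
      have e : η * ‖c‖ * ‖c‖ = η * ‖c‖ ^ 2 := by ring
      linarith
  have hEt := real_err (g := fun s => Gm m p u s x c c) ht htρ (sq_nonneg ‖c‖) hn.le hη0 hE₀ hlow
  have gt0 := g0 t ht
  have hLt : L₂ * t ≤ Q * ρ ^ 2 := by
    calc L₂ * t ≤ Q * t := by gcongr
      _ ≤ _ := by gcongr
  have hgeq : ∀ s, t ≤ s → s ≤ L₂ * t → Gm m p u t x c c / 2 ≤ Gm m p u s x c c ∧
      Gm m p u s x c c ≤ 2 * Gm m p u t x c c := fun s h1 h2 =>
    real_geq (g := fun s => Gm m p u s x c c) ht hE₀0 hL₂1 hε0 hnε hnη gt0 hEt h1 h2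
      (up (2 * ε') le_rfl (by linarith) t s le_rfl h1 (h2.trans hLt))
      (lo t s ht h1 (h2.trans hLt))
  refine ⟨hlow, fun s h1 h2 => ?_⟩
  rcases le_or_gt t s with hts | hst
  · exact hgeq s hts (h2.trans (mul_le_mul_of_nonneg_right hLL ht.le))
  · have hs0 : 0 < s := lt_of_lt_of_le (by positivity) h1
    constructor
    · have hLr : ∀ r ∈ Ioo s t, t ≤ L * r := by
        intro r hr
        have := h1.trans hr.1.le
        rw [div_le_iff₀ (by positivity)] at this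
        linarith
      have hs₂L : 4 * A ^ 2 * t ≤ L₂ * t := by
        rw [hL₂]
        exact mul_le_mul_of_nonneg_right (le_mul_of_one_le_right (by positivity) hL) ht.le
      have hs₂t : t ≤ 4 * A ^ 2 * t := by
        have : 1 * t ≤ 4 * A ^ 2 * t := mul_le_mul_of_nonneg_right (by linarith) ht.le
        linarith
      have hg2 := (hgeq (4 * A ^ 2 * t) hs₂t hs₂L).2
      have k9 := gb_top h hu hη0 hx c ht hT hε0 (hs₂L.trans hLt) hg2
      have hx1 : dist x o ≤ 1 := (mem_ball.1 hx).le.trans hu.Rρ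
      have hY : 0 ≤ 2 * (ε' * Gm m p u t x c c / t) + 12 * n * (η / ρ ^ 2) * ‖c‖ ^ 2 := by
        positivity
      exact real_harn (g := fun s => Gm m p u s x c c) ht hs0 hst hn1 hc₁0 hE₀0 hε0 hε hη0 hη hεb
        gt0 hEt (ge s t _ hs0 hst.le (htρ.trans hQρ) fun r hr =>
          gb_harn h (uc_test (env_gamma h) hu c) hx1 (hs0.trans hr.1) hr.2.le (hLr r hr)
            (by linarith) ((hs₂L.trans hLt).trans hu.Qρ) hY k9)
    · have k1 := lo s t hs0 hst.le (htρ.trans hQρ)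
      have k2 : (t - s) * E₀ ≤ E₀ * t := by nlinarith
      have k3 : 24 * n * η * Gm m p u t x c c ≤ 24 * (1 / 256) * Gm m p u t x c c := by
        have : 24 * n * η = 24 * (n * η) := by ring
        rw [this]; gcongr
      linarith

end cmp

end Vale.Agent.P242.H751
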