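import Vale.Agent.P242.H751.Cmp

/-! P242 (helper751): (P3g), growth of `Γ(u_c,u_c)` around a centre, and (ND) `Blk_Nd`. -/

set_option linter.all false

open MeasureTheory Filter Topology Set Metric
open scoped ENNReal NNReal MeasureTheory InnerProductSpace

universe u

namespace Vale.Agent.P242.H751

open Vale.Agent.P233 Vale.Agent.P233.RA Vale.Agent.P242.H71 Vale.Agent.P242.H990

theorem far_exp {A L R t τ ρ d : ℝ} (hA1 : 1 ≤ A) (hL : 1 ≤ L) (hR : 32 * A * L ≤ R) (ht : 0 < t)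
    (hτ0 : 0 < τ) (hτ2 : τ ≤ L * t) (hρ : 0 < ρ) (hd : R / 2 * ρ ≤ d) :
    ρ ^ 2 / t ≤ Real.exp (d ^ 2 / (8 * A * τ)) := by
  have hR0 : 0 < R := lt_of_lt_of_le (by positivity) hR
  have h5 : ρ ^ 2 / t ≤ d ^ 2 / (8 * A * τ) := by
    rw [div_le_div_iff₀ ht (by positivity)]
    have h6 : (R / 2 * ρ) ^ 2 ≤ d ^ 2 := pow_le_pow_left₀ (by positivity) hd 2
    have h7 : 32 * A * L ≤ R ^ 2 := by
      have h8 : (1 : ℝ) ≤ R := by
        have : 1 ≤ A * L := by nlinarith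
        nlinarith
      nlinarith
    calc ρ ^ 2 * (8 * A * τ) ≤ ρ ^ 2 * (8 * A * (L * t)) := by gcongr
      _ = (32 * A * L) * (ρ ^ 2 * t / 4) := by ring
      _ ≤ R ^ 2 * (ρ ^ 2 * t / 4) := mul_le_mul_of_nonneg_right h7 (by positivity)
      _ = (R / 2 * ρ) ^ 2 * t := by ring
      _ ≤ _ := mul_le_mul_of_nonneg_right h6 ht.le
  have h9 := Real.add_one_le_exp (d ^ 2 / (8 * A * τ))
  linarith

theorem far_norm {t r N G : ℝ} (ht : 0 < t) (htr : t ≤ r) (hN : 0 ≤ N)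
    (hlow : (t / r) ^ (1 / 8 : ℝ) * N ≤ 2 * G) : N ≤ (r / t) * (2 * G) := by
  have hr : 0 < r := ht.trans_le htr
  have k1 : t / r ≤ (t / r) ^ (1 / 8 : ℝ) := by
    have h1 : t / r ≤ 1 := by rw [div_le_one (by positivity)]; exact htr
    calc t / r = (t / r) ^ (1 : ℝ) := (Real.rpow_one _).symm
      _ ≤ _ := Real.rpow_le_rpow_of_exponent_ge (by positivity) h1 (by norm_num)
  have k2 : t / r * N ≤ 2 * G := (mul_le_mul_of_nonneg_right k1 hN).trans hlow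
  have k3 : N = (r / t) * (t / r * N) := by field_simp
  rw [k3]
  exact mul_le_mul_of_nonneg_left k2 (by positivity)

section p3g

variable {M : Type u} [MetricSpace M] [CompleteSpace M] [SecondCountableTopology M]
  [MeasurableSpace M] [BorelSpace M] {m : Measure M} {n : ℕ} {K : ℝ} {o : M} {A : ℝ}
  {p : ℝ → M → M → ℝ} {s s' t τ : ℝ} {f g F G : M →ₘ[m] ℝ}
  {R Q η ρ ε' : ℝ} {u : Fin n → M →ₘ[m] ℝ} {uu : M → E n}

/-- far Harnack inequality for classes -/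
theorem PP_far (h : Env m n K o A p) {Γ : ℝ} (x z : M) (hs : 0 < s) (h1 : 4 * A ^ 2 * s ≤ s')
    (h2 : s' ≤ Γ * s) (h3 : s' ≤ 1 / 2) (hF : 0 ≤ F)
    (hi : MemLp (ph m p s' x * F : M →ₘ[m] ℝ) 1 m) :
    PP m p s z F ≤ cF n A Γ * Real.exp (2 * A * dist x o) *
      Real.exp (3 * A * dist x z ^ 2 / s') * PP m p s' x F := by
  have hA0 := h.kb.pos
  have hs' : 0 < s' := lt_of_lt_of_le (by positivity) h1
  have key := (pt_far h.ker h.kb x z hs h1 h2 h3 (F := F) F.aestronglyMeasurable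
    ((int_ph_mul h.ker hs' x).1 hi)).2
  have e : (fun w => |F w|) =ᵐ[m] F := by
    filter_upwards [nonneg_iff_ae.1 hF] with w hw
    rw [abs_of_nonneg hw]
  rw [pt_congr h.ker e, pt_congr h.ker e, ← PP_eq_pt h.ker hs, ← PP_eq_pt h.ker hs'] at key
  exact key

/-- **(P3g)**: growth of `Γ(u_c,u_c)` around the centre `x`, inside `ball o (R ρ)` -/
theorem p3g (h : Env m n K o A p) (hu : Cfg m n K o p R Q η ρ u uu) (hη : 0 ≤ η) (x : M)
    (hx : dist x o ≤ 1) (hτ : 0 < τ) (hτ1 : 24 * A ^ 2 * τ ≤ 1 / 2) (hτQ : τ ≤ Q * ρ ^ 2)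
    (c : E n) : ∀ᵐ z ∂m, z ∈ ball o (R * ρ) → (sob m).Γ (uc u c) (uc u c) z ≤
      cF n A (24 * A ^ 2) * Real.exp (2 * A) * Real.exp (dist x z ^ 2 / (8 * A * τ)) *
        Gm m p u (24 * A ^ 2 * τ) x c c + τ * (12 * n * (η / ρ ^ 2) * ‖c‖ ^ 2) := by
  have hC := env_gamma h
  have hB := env_bein h
  have hA1 := h.kb.one_le
  have hA0 := h.kb.pos
  have hs' : 0 < 24 * A ^ 2 * τ := by positivity
  have hf := uc_test hC hu c
  have hcF := cF_pos (n := n) hA1 (by positivity : 0 < 24 * A ^ 2)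
  have h0 : 0 ≤ (sob m).Γ (uc u c) (uc u c) := hC.nonneg _ (hC.test_A hf).1
  have key := H597.ae_le_av hC hB hf (Φ := fun z s => ph m p s z) (fun z => env_cen h z)
    (fun s hs g hg => by
      filter_upwards [PP_ae h.ker hs hg] with z hz
      rw [hz]; rfl) (U := ball o (R * ρ)) (t := τ)
    (E := 12 * n * (η / ρ ^ 2) * ‖c‖ ^ 2) hτ (fun z hz r hr hr2 =>
      er_le h hu hη hz hr (hr2.trans hτQ) c)
  filter_upwards [key] with z hz hzU
  refine (hz hzU).trans (add_le_add ?_ le_rfl)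
  have k1 := PP_far h (Γ := 24 * A ^ 2) x z hτ (s' := 24 * A ^ 2 * τ) (by nlinarith) le_rfl hτ1 h0
    (PP_int_top h.ker hs' x (Γ_top hC hu c c))
  have e : 3 * A * dist x z ^ 2 / (24 * A ^ 2 * τ) = dist x z ^ 2 / (8 * A * τ) := by
    field_simp
    ring
  rw [e] at k1
  have hG : 0 ≤ PP m p (24 * A ^ 2 * τ) x ((sob m).Γ (uc u c) (uc u c)) :=
    (env_cen h x).av_nonneg hs' h0
  refine k1.trans ?_
  change _ ≤ cF n A (24 * A ^ 2) * Real.exp (2 * A) * Real.exp (dist x z ^ 2 / (8 * A * τ)) *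
    PP m p (24 * A ^ 2 * τ) x ((sob m).Γ (uc u c) (uc u c))
  have : Real.exp (2 * A * dist x o) ≤ Real.exp (2 * A) := by
    refine Real.exp_le_exp.2 ?_
    calc 2 * A * dist x o ≤ 2 * A * 1 := mul_le_mul_of_nonneg_left hx (by positivity)
      _ = 2 * A := mul_one _
  gcongr

/-- the constant of (P3g) -/
noncomputable def cP (n : ℕ) (A : ℝ) : ℝ :=
  2 * (cF n A (24 * A ^ 2) * Real.exp (2 * A)) + 8 * n + 1

theorem cP_ge (hA : 1 ≤ A) : 1 ≤ cP n A := by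
  have := cF_pos (n := n) hA (by positivity : 0 < 24 * A ^ 2)
  unfold cP
  have : 0 < cF n A (24 * A ^ 2) * Real.exp (2 * A) := by positivity
  have : (0 : ℝ) ≤ n := Nat.cast_nonneg n
  linarith

/-- **(P3g)** under the transformation estimate at the centre `x`: growth of `Γ(u_c,u_c)` on the
whole space, at the scale `τ` comparable to `t`. The constant depends on the kernel only. -/
theorem p3gX (h : Env m n K o A p) {L : ℝ} (hL : 1 ≤ L) : ∃ ε₁, 0 < ε₁ ∧ ∀ (R Q ε' η ρ : ℝ)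
    (u : Fin n → M →ₘ[m] ℝ) (uu : M → E n), 4 * A ^ 2 * (24 * A ^ 2 * L) ≤ Q →
    32 * A * L ≤ R → 0 ≤ ε' → ε' ≤ ε₁ → 0 ≤ η → η ≤ ε₁ →
    Cfg m n K o p R Q η ρ u uu → ∀ x ∈ ball o (R / 2 * ρ), ∀ t, 0 < t → t ≤ ρ ^ 2 →
    H155.TTx m K p Q ε' ρ u x t → ∀ τ, t / L ≤ τ → τ ≤ L * t → ∀ c : E n,
      ∀ᵐ z ∂m, (sob m).Γ (uc u c) (uc u c) z ≤
        cP n A * Real.exp (dist x z ^ 2 / (8 * A * τ)) * Gm m p u t x c c := by
  have hA1 := h.kb.one_le
  have hA0 := h.kb.pos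
  have hA2 : 1 ≤ A ^ 2 := one_le_pow₀ hA1
  have hn : (0 : ℝ) < n := (H924.facts h.hyp).npos
  have hL₃ : 1 ≤ 24 * A ^ 2 * L := by nlinarith
  have hLL₃ : L ≤ 24 * A ^ 2 * L := by nlinarith
  obtain ⟨ε₀, hε₀0, hε₀⟩ := cmpX h (L := 24 * A ^ 2 * L) hL₃
  obtain ⟨ε₁, hε₁0, hεa, hεb⟩ : ∃ ε₁ : ℝ, 0 < ε₁ ∧ ε₁ ≤ ε₀ ∧ 24 * n * L * ε₁ ≤ 1 := by
    refine ⟨min ε₀ (1 / (24 * n * L)), by positivity, min_le_left _ _, ?_⟩
    refine (mul_le_mul_of_nonneg_left (min_le_right _ _) (by positivity)).trans (le_of_eq ?_)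
    field_simp
  refine ⟨ε₁, hε₁0, ?_⟩
  intro R Q ε' η ρ u uu hQ hR hε0 hε hη0 hη hu x hx t ht htρ hT τ hτ1 hτ2 c
  have hρ := hu.ρ_pos
  have hρ2 : 0 < ρ ^ 2 := by positivity
  have hR0 : 0 < R := lt_of_lt_of_le (by positivity) hR
  have hxR : x ∈ ball o (R * ρ) := by
    refine ball_subset_ball ?_ hx
    nlinarith
  obtain ⟨hlow, hcmp⟩ := hε₀ R Q ε' η ρ u uu hQ hε0 (hε.trans hεa) hη0 (hη.trans hεa) hu x hxR t ht
    htρ hT c
  have hτ0 : 0 < τ := lt_of_lt_of_le (by positivity) hτ1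
  have hA4 : 24 * A ^ 2 * L ≤ 4 * A ^ 2 * (24 * A ^ 2 * L) := le_mul_of_one_le_left (by positivity)
    (by linarith)
  have hLQ : 24 * A ^ 2 * L * t ≤ Q * ρ ^ 2 := by
    have : 24 * A ^ 2 * L ≤ Q := hA4.trans hQ
    calc 24 * A ^ 2 * L * t ≤ Q * t := by gcongr
      _ ≤ _ := by
        have : 0 ≤ Q := by linarith
        gcongr
  have h24 : 24 * A ^ 2 * τ ≤ 24 * A ^ 2 * L * t := by
    rw [mul_assoc (24 * A ^ 2) L]
    exact mul_le_mul_of_nonneg_left hτ2 (by positivity)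
  have hτ24 : τ ≤ 24 * A ^ 2 * τ := le_mul_of_one_le_left hτ0.le (by linarith)
  have hx1 : dist x o ≤ 1 := (mem_ball.1 hxR).le.trans hu.Rρ
  have key := p3g h hu hη0 x hx1 hτ0 (h24.trans (hLQ.trans hu.Qρ)) (hτ24.trans (h24.trans hLQ)) c
  have hG := (hcmp (24 * A ^ 2 * τ) (by
    refine le_trans ?_ (hτ1.trans hτ24)
    exact div_le_div_of_nonneg_left ht.le (by positivity) hLL₃) h24).2
  have g0 : 0 ≤ Gm m p u t x c c := (env_cen h x).av_nonneg ht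
    ((env_gamma h).nonneg _ ((env_gamma h).test_A (uc_test (env_gamma h) hu c)).1)
  set G := Gm m p u t x c c with hGdef
  have hcF := cF_pos (n := n) hA1 (by positivity : 0 < 24 * A ^ 2)
  set c₂ : ℝ := cF n A (24 * A ^ 2) * Real.exp (2 * A) with hc₂
  have hc₂0 : 0 < c₂ := by positivity
  have hEt := real_err (g := fun s => Gm m p u s x c c) ht htρ (sq_nonneg ‖c‖) hn.le hη0 rfl hlow
  have hEτ : τ * (12 * n * (η / ρ ^ 2) * ‖c‖ ^ 2) ≤ G := by
    have hE0 : 0 ≤ 12 * n * (η / ρ ^ 2) * ‖c‖ ^ 2 := by positivity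
    calc τ * (12 * n * (η / ρ ^ 2) * ‖c‖ ^ 2) ≤ (L * t) * (12 * n * (η / ρ ^ 2) * ‖c‖ ^ 2) :=
          mul_le_mul_of_nonneg_right hτ2 hE0
      _ = L * (12 * n * (η / ρ ^ 2) * ‖c‖ ^ 2 * t) := by ring
      _ ≤ L * (24 * n * η * G) := mul_le_mul_of_nonneg_left hEt (by positivity)
      _ = (24 * n * L * η) * G := by ring
      _ ≤ 1 * G := by
          refine mul_le_mul_of_nonneg_right ?_ g0
          exact (mul_le_mul_of_nonneg_left hη (by positivity)).trans hεb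
      _ = G := one_mul _
  have e0 : cP n A = 2 * c₂ + 8 * n + 1 := rfl
  filter_upwards [key, H924.uc_grad h hu c] with z hz1 hz2
  have hexp1 : 1 ≤ Real.exp (dist x z ^ 2 / (8 * A * τ)) := Real.one_le_exp (by positivity)
  by_cases hzU : z ∈ ball o (R * ρ)
  · refine (hz1 hzU).trans ?_
    have k1 : c₂ * Real.exp (dist x z ^ 2 / (8 * A * τ)) * Gm m p u (24 * A ^ 2 * τ) x c c ≤
        c₂ * Real.exp (dist x z ^ 2 / (8 * A * τ)) * (2 * G) :=
      mul_le_mul_of_nonneg_left hG (by positivity)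
    have k2 : 0 ≤ (8 * n : ℝ) * Real.exp (dist x z ^ 2 / (8 * A * τ)) * G := by positivity
    have k3 : 1 * G ≤ Real.exp (dist x z ^ 2 / (8 * A * τ)) * G :=
      mul_le_mul_of_nonneg_right hexp1 g0
    rw [e0]
    linarith
  · -- far away
    have hd : R / 2 * ρ ≤ dist x z := by
      rw [mem_ball, not_lt] at hzU
      have h1 := mem_ball.1 hx
      have h2 := dist_triangle z x o
      rw [dist_comm z x] at h2
      linarith
    have h4 := far_exp hA1 hL hR ht hτ0 hτ2 hρ hd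
    have h10 : ‖c‖ ^ 2 ≤ (ρ ^ 2 / t) * (2 * G) := far_norm ht htρ (sq_nonneg _) hlow
    refine hz2.trans ?_
    have hs1 : √(n : ℝ) * √n = n := Real.mul_self_sqrt hn.le
    calc (2 * √(n : ℝ) * ‖c‖) ^ 2 = 4 * (√(n : ℝ) * √n) * ‖c‖ ^ 2 := by ring
      _ = 4 * n * ‖c‖ ^ 2 := by rw [hs1]
      _ ≤ 4 * n * ((ρ ^ 2 / t) * (2 * G)) := mul_le_mul_of_nonneg_left h10 (by positivity)
      _ ≤ 4 * n * (Real.exp (dist x z ^ 2 / (8 * A * τ)) * (2 * G)) := by gcongr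
      _ = 8 * n * Real.exp (dist x z ^ 2 / (8 * A * τ)) * G := by ring
      _ ≤ cP n A * Real.exp (dist x z ^ 2 / (8 * A * τ)) * G := by
          rw [e0]
          gcongr
          linarith

end p3g

end Vale.Agent.P242.H751
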