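import Vale.Agent.P233.N2.H883.Bridge

/-! P242, package F-UP (helper751): Davies-Gaffney for two sets, from block H5. -/

set_option linter.all false

open MeasureTheory Filter Topology Set Metric
open scoped ENNReal NNReal

universe u

namespace Vale.Agent.P242.H751

open Vale.Agent.P233 Vale.Agent.P233.RA

section

variable {M : Type u} [MetricSpace M] [CompleteSpace M] [MeasurableSpace M] [BorelSpace M]
  [SecondCountableTopology M] {m : Measure M} {n : ℕ} {K : ℝ} {θ : M → ℝ}

/-- the class of an indicator -/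
noncomputable def ind (m : Measure M) (A : Set M) : M →ₘ[m] ℝ := cl m (A.indicator fun _ => 1)

theorem ind_ae {A : Set M} (hA : MeasurableSet A) : ⇑(ind m A) =ᵐ[m] A.indicator fun _ => (1 : ℝ) :=
  H183.cl_ae (measurable_const.indicator hA).aestronglyMeasurable

theorem ind_mem {A : Set M} (hA : MeasurableSet A) (hf : m A ≠ ∞) : MemLp (ind m A) 2 m :=
  (memLp_indicator_const 2 hA 1 (Or.inr hf)).ae_eq (ind_ae hA).symm

theorem ind_nonneg {A : Set M} (hA : MeasurableSet A) : 0 ≤ ind m A := by
  rw [le_iff_ae]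
  filter_upwards [ind_ae (m := m) hA, zero_ae (M := M) (m := m)] with x h1 h2
  rw [h1, h2]
  exact Set.indicator_nonneg (fun _ _ => zero_le_one) x

theorem I_ind_sq {A : Set M} (hA : MeasurableSet A) : I (ind m A ^ 2) = (m A).toReal := by
  have : ⇑(ind m A ^ 2) =ᵐ[m] A.indicator fun _ => (1 : ℝ) := by
    filter_upwards [ind_ae (m := m) hA, sq_ae (ind m A)] with x h1 h2
    rw [h2, h1]
    by_cases hx : x ∈ A <;> simp [hx]
  unfold I
  rw [integral_congr_ae this, integral_indicator hA]
  simp [Measure.real]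

/-- the potential of a set -/
noncomputable def rho (A : Set M) (D : ℝ) (x : M) : ℝ := min (infDist x A) D

theorem rho_nonneg {A : Set M} {D : ℝ} (hD : 0 ≤ D) (x : M) : 0 ≤ rho A D x :=
  le_min infDist_nonneg hD

theorem rho_le {A : Set M} {D : ℝ} (x : M) : rho A D x ≤ D := min_le_right _ _

theorem rho_lip (A : Set M) (D : ℝ) : LipschitzWith 1 (rho A D) :=
  (lipschitz_infDist_pt A).min_const D

theorem bLip_rho (A : Set M) {D : ℝ} (hD : 0 ≤ D) (c d : ℝ) : BLip fun x => c * rho A D x + d := by
  refine ⟨⟨Real.nnabs c, ?_⟩, |c| * D + |d|, fun x => ?_⟩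
  · refine LipschitzWith.of_dist_le_mul fun x y => ?_
    have h := (rho_lip A D).dist_le_mul x y
    rw [Real.dist_eq] at h ⊢
    have e : c * rho A D x + d - (c * rho A D y + d) = c * (rho A D x - rho A D y) := by ring
    rw [e, abs_mul, Real.coe_nnabs]
    simp only [NNReal.coe_one, one_mul] at h
    exact mul_le_mul_of_nonneg_left h (abs_nonneg c)
  · refine (abs_add_le _ _).trans ?_
    rw [abs_mul, abs_of_nonneg (rho_nonneg hD x)]
    gcongr
    exact rho_le x

/-- **Davies-Gaffney for two sets** (`Q_T = P_{T/2}`) -/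
theorem davies_set (hN : N2.NSp2 m n K θ) {A B : Set M} (hA : MeasurableSet A)
    (hB : MeasurableSet B) (hmA : m A ≠ ∞) (hmB : m B ≠ ∞) {D T : ℝ} (hD : 0 ≤ D) (hT : 0 < T)
    (hAB : ∀ a ∈ A, ∀ b ∈ B, D ≤ dist a b) :
    I (ind m A * Q m T (ind m B)) ≤
      √((m A).toReal) * √((m B).toReal) * Real.exp (-(D ^ 2 / (2 * T))) := by
  rcases A.eq_empty_or_nonempty with rfl | hne
  · have h0 : ⇑(ind m (∅ : Set M) * Q m T (ind m B)) =ᵐ[m] fun _ => (0 : ℝ) := by
      filter_upwards [ind_ae (m := m) (A := (∅ : Set M)) MeasurableSet.empty,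
        mul_ae (ind m (∅ : Set M)) (Q m T (ind m B))] with x h1 h2
      rw [h2, h1]; simp
    unfold I
    rw [integral_congr_ae h0]
    simp
  have hH5 := N2.H883.forN N2.H732.blk_H5
  set φ : M → ℝ := fun x => (-D) * rho A D x + 0 with hφ
  set ψ : M → ℝ := fun x => D * rho A D x + (-(D ^ 2 / 2)) with hψ
  have hφψ : ∀ x y, φ x + ψ y ≤ dist x y ^ 2 / 2 := by
    intro x y
    have h := (rho_lip A D).dist_le_mul y x
    simp only [NNReal.coe_one, one_mul] at h
    rw [Real.dist_eq, dist_comm] at h
    have h2 : rho A D y - rho A D x ≤ dist x y := (le_abs_self _).trans h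
    simp only [hφ, hψ]
    nlinarith [sq_nonneg (dist x y - D), mul_le_mul_of_nonneg_left h2 hD]
  have hBm : MemLp (ind m B) 2 m := ind_mem hB hmB
  have hc : MemLp (Real.exp (-(D ^ 2 / (2 * T))) • ind m B : M →ₘ[m] ℝ) 2 m :=
    (hBm.const_smul (Real.exp (-(D ^ 2 / (2 * T))))).ae_eq (AEEqFun.coeFn_smul _ _).symm
  have key := hH5 M m n K θ hN φ ψ (bLip_rho A hD _ _) (bLip_rho A hD _ _) hφψ T hT (ind m A)
    (Real.exp (-(D ^ 2 / (2 * T))) • ind m B) (ind_mem hA hmA) hc
  -- simplify the two products
  have e1 : cl m (fun x => Real.exp (φ x / T)) * ind m A = ind m A := by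
    ext
    filter_upwards [mul_ae (cl m (fun x => Real.exp (φ x / T))) (ind m A), ind_ae (m := m) hA,
      H183.cl_ae (m := m) (f := fun x => Real.exp (φ x / T)) (by
        refine (Real.measurable_exp.comp ?_).aestronglyMeasurable
        have : Continuous φ := by
          have := (rho_lip A D).continuous
          fun_prop
        exact this.measurable.div_const T)] with x h1 h2 h3
    rw [h1, h3, h2]
    by_cases hx : x ∈ A
    · have : rho A D x = 0 := by
        unfold rho
        rw [infDist_zero_of_mem hx]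
        exact min_eq_left hD
      simp [hx, hφ, this]
    · simp [hx]
  have e2 : cl m (fun x => Real.exp (ψ x / T)) * (Real.exp (-(D ^ 2 / (2 * T))) • ind m B)
      = ind m B := by
    ext
    filter_upwards [mul_ae (cl m (fun x => Real.exp (ψ x / T)))
      (Real.exp (-(D ^ 2 / (2 * T))) • ind m B), ind_ae (m := m) hB,
      AEEqFun.coeFn_smul (Real.exp (-(D ^ 2 / (2 * T)))) (ind m B),
      H183.cl_ae (m := m) (f := fun x => Real.exp (ψ x / T)) (by
        refine (Real.measurable_exp.comp ?_).aestronglyMeasurable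
        have : Continuous ψ := by
          have := (rho_lip A D).continuous
          fun_prop
        exact this.measurable.div_const T)] with x h1 h2 h4 h3
    rw [h1, h3, h4, Pi.smul_apply, h2]
    by_cases hx : x ∈ B
    · have : rho A D x = D := by
        unfold rho
        refine min_eq_right ?_
        rw [le_infDist hne]
        intro a ha
        rw [dist_comm]
        exact hAB a ha x hx
      simp only [hx, indicator_of_mem, smul_eq_mul, mul_one, hψ, this]
      rw [← Real.exp_add, Real.exp_eq_one_iff]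
      field_simp
      ring
    · simp [hx]
  rw [e1, e2] at key
  refine key.trans (le_of_eq ?_)
  have e3 : I ((Real.exp (-(D ^ 2 / (2 * T))) • ind m B) ^ 2)
      = Real.exp (-(D ^ 2 / (2 * T))) ^ 2 * (m B).toReal := by
    rw [← I_ind_sq hB]
    unfold I
    rw [← integral_const_mul]
    refine integral_congr_ae ?_
    filter_upwards [sq_ae (ind m B), sq_ae (Real.exp (-(D ^ 2 / (2 * T))) • ind m B),
      AEEqFun.coeFn_smul (Real.exp (-(D ^ 2 / (2 * T)))) (ind m B)] with x h1 h2 h3
    rw [h1, h2, h3, Pi.smul_apply, smul_eq_mul, mul_pow]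
  rw [e3, I_ind_sq hA, Real.sqrt_mul (sq_nonneg _), Real.sqrt_sq (Real.exp_pos _).le]
  ring

end

end Vale.Agent.P242.H751
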