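import Vale.Agent.P242.H751.Vol

/-! P242, package F-UP (helper751): Gaussian upper bound for a kernel from the `L²` bound, Harnack
for sets and Davies-Gaffney for sets. -/

set_option linter.all false

open MeasureTheory Filter Topology Set Metric
open scoped ENNReal NNReal

universe u

namespace Vale.Agent.P242.H751

open Vale.Agent.P233 Vale.Agent.P233.RA

/-- what is used about the kernel -/
structure KU {M : Type u} [MetricSpace M] [MeasurableSpace M] (m : Measure M)
    (q : ℝ → M → M → ℝ≥0∞) (c₀ : ℝ) : Prop where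
  meas : ∀ s, 0 < s → Measurable fun z : M × M => q s z.1 z.2
  symm : ∀ s, 0 < s → ∀ x z, q s x z = q s z x
  mass : ∀ s, 0 < s → ∀ x, ∫⁻ z, q s x z ∂m ≤ 1
  semi : ∀ s, 0 < s → ∀ x z, q (2 * s) x z = ∫⁻ w, q s x w * q s w z ∂m
  l2 : ∀ s, 0 < s → s ≤ 1 → ∀ x, (∫⁻ z, q s x z ^ 2 ∂m) * m (ball x (√s)) ≤ ENNReal.ofReal c₀
  har : ∀ s, 0 < s → s ≤ 1 → ∀ x y, ∀ E : Set M, MeasurableSet E →
    (∫⁻ w in E, q s x w ∂m) ^ 2 ≤
      ENNReal.ofReal (Real.exp (c₀ * (dist x y ^ 2 / s))) * ∫⁻ w in E, q s y w ∂m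
  dav : ∀ s, 0 < s → ∀ A B : Set M, MeasurableSet A → MeasurableSet B → m A ≠ ∞ → m B ≠ ∞ →
    ∀ D : ℝ, 0 ≤ D → (∀ a ∈ A, ∀ b ∈ B, D ≤ dist a b) →
    ∫⁻ x in A, ∫⁻ z in B, q s x z ∂m ∂m ≤
      ENNReal.ofReal (√(m.real A) * √(m.real B) * Real.exp (-(D ^ 2 / (4 * s))))

section

variable {M : Type u} [MetricSpace M] [MeasurableSpace M] [BorelSpace M]
  [SecondCountableTopology M] {m : Measure M} {n : ℕ} {q : ℝ → M → M → ℝ≥0∞} {c₀ : ℝ}

theorem vol_pos (g : RG.GeoN m n) (x : M) {r : ℝ} (hr : 0 < r) : 0 < m.real (ball x r) := by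
  have := g.full
  rw [measureReal_def]
  exact ENNReal.toReal_pos (isOpen_ball.measure_pos m ⟨x, mem_ball_self hr⟩).ne' (g.fin x r).ne

/-- one annulus -/
theorem annulus (g : RG.GeoN m n) (k : KU m q c₀) (hc₀ : 0 ≤ c₀) {C : ℝ} (hC : 1 ≤ C)
    (hV : ∀ (x : M) (r R : ℝ), 0 < r → r ≤ 1 → r ≤ R →
      m.real (ball x R) ≤ C * (R / r) ^ n * Real.exp (C * R) * m.real (ball x r))
    {s : ℝ} (hs : 0 < s) (hs1 : s ≤ 1) (x : M) (j : ℕ) :
    ∫⁻ w in {w | j * √s ≤ dist x w ∧ dist x w < (j + 1) * √s}, q s x w ∂m ≤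
      ENNReal.ofReal (Real.exp ((c₀ + 2 * C + n) * (j + 1) - (j ^ 2 - 2 * j) / 8)) := by
  set r := √s with hr
  have hr0 : 0 < r := Real.sqrt_pos.2 hs
  have hr1 : r ≤ 1 := by rw [hr]; exact Real.sqrt_le_one.2 hs1
  have hrs : r ^ 2 = s := Real.sq_sqrt hs.le
  set A : Set M := {w | j * r ≤ dist x w ∧ dist x w < (j + 1) * r} with hA
  have hmA : MeasurableSet A := by
    have h1 : Measurable fun w => dist x w := (continuous_const.dist continuous_id).measurable
    exact (measurableSet_le measurable_const h1).inter (measurableSet_lt h1 measurable_const)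
  have hAsub : A ⊆ ball x ((j + 1) * r) := by
    intro w hw
    rw [mem_ball, dist_comm]
    exact hw.2
  have hAfin : m A ≠ ∞ := ((measure_mono hAsub).trans_lt (g.fin _ _)).ne
  have : IsFiniteMeasure (m.restrict A) := ⟨by
    rw [Measure.restrict_apply_univ]; exact hAfin.lt_top⟩
  set V := m.real (ball x r) with hVd
  have hV0 : 0 < V := vol_pos g x hr0
  have hj0 : (0 : ℝ) ≤ j := j.cast_nonneg
  have hAV : m.real A ≤ Real.exp ((2 * C + n) * (j + 1)) * V := by
    have h1 : m.real A ≤ m.real (ball x ((j + 1) * r)) := measureReal_mono hAsub (g.fin _ _).ne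
    have h2 := hV x r ((j + 1) * r) hr0 hr1 (by nlinarith)
    rw [mul_div_cancel_right₀ _ hr0.ne'] at h2
    refine (h1.trans h2).trans (mul_le_mul_of_nonneg_right ?_ measureReal_nonneg)
    have e1 : C ≤ Real.exp (C * (j + 1)) := by
      have := Real.add_one_le_exp (C * (j + 1))
      nlinarith
    have e2 : ((j : ℝ) + 1) ^ n ≤ Real.exp (n * (j + 1)) := by
      rw [Real.exp_nat_mul]
      exact pow_le_pow_left₀ (by linarith) (by linarith [Real.add_one_le_exp ((j : ℝ) + 1)]) n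
    have e3 : Real.exp (C * ((j + 1) * r)) ≤ Real.exp (C * (j + 1)) := by
      refine Real.exp_le_exp.2 ?_
      have : (0 : ℝ) ≤ C * (j + 1) := by positivity
      nlinarith
    calc C * ((j : ℝ) + 1) ^ n * Real.exp (C * ((j + 1) * r))
        ≤ Real.exp (C * (j + 1)) * Real.exp (n * (j + 1)) * Real.exp (C * (j + 1)) := by
          gcongr
      _ = Real.exp ((2 * C + n) * (j + 1)) := by
          rw [← Real.exp_add, ← Real.exp_add]
          congr 1
          ring
  -- average over the small ball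
  set G := ∫⁻ w in A, q s x w ∂m with hG
  set D : ℝ := max ((j : ℝ) - 1) 0 * r with hD
  have hD0 : 0 ≤ D := by rw [hD]; positivity
  have h1 : m (ball x r) * G ^ 2 ≤ ENNReal.ofReal (Real.exp c₀) *
      ∫⁻ y in ball x r, ∫⁻ w in A, q s y w ∂m ∂m := by
    calc m (ball x r) * G ^ 2 = ∫⁻ y in ball x r, G ^ 2 ∂m := by
          rw [setLIntegral_const, mul_comm]
      _ ≤ ∫⁻ y in ball x r, ENNReal.ofReal (Real.exp c₀) * ∫⁻ w in A, q s y w ∂m ∂m := by
          refine setLIntegral_mono' measurableSet_ball fun y hy => ?_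
          refine (k.har s hs hs1 x y A hmA).trans (mul_le_mul_left ?_ _)
          refine ENNReal.ofReal_le_ofReal (Real.exp_le_exp.2 ?_)
          rw [mem_ball, dist_comm] at hy
          have e1 : dist x y ^ 2 / s ≤ 1 := by
            rw [div_le_one hs, ← hrs]
            exact pow_le_pow_left₀ dist_nonneg hy.le 2
          nlinarith
      _ = _ := by
          rw [lintegral_const_mul _]
          exact (k.meas s hs).lintegral_prod_right' (ν := m.restrict A)
  have h2 := k.dav s hs (ball x r) A measurableSet_ball hmA (g.fin _ _).ne hAfin D hD0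
    (by
      intro a ha b hb
      rw [mem_ball] at ha
      have h3 := dist_triangle x a b
      rw [dist_comm x a] at h3
      have h4 := hb.1
      rcases le_total ((j : ℝ) - 1) 0 with h5 | h5
      · rw [hD, max_eq_right h5, zero_mul]; exact dist_nonneg
      · rw [hD, max_eq_left h5]
        nlinarith)
  have h3 : m (ball x r) * G ^ 2 ≤ ENNReal.ofReal (Real.exp c₀ *
      (√V * √(m.real A) * Real.exp (-(D ^ 2 / (4 * s))))) := by
    rw [ENNReal.ofReal_mul (Real.exp_pos _).le]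
    exact h1.trans (mul_le_mul_right h2 _)
  have h4 : √V * √(m.real A) ≤ V * Real.exp ((2 * C + n) * (j + 1)) := by
    have e1 : √V * √(m.real A) ≤ √V * √(Real.exp ((2 * C + n) * (j + 1)) * V) :=
      mul_le_mul_of_nonneg_left (Real.sqrt_le_sqrt hAV) (Real.sqrt_nonneg _)
    refine e1.trans ?_
    rw [Real.sqrt_mul (Real.exp_pos _).le]
    have e2 : √(Real.exp ((2 * C + n) * (j + 1))) ≤ Real.exp ((2 * C + n) * (j + 1)) := by
      rw [Real.sqrt_le_left (Real.exp_pos _).le]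
      have : 1 ≤ Real.exp ((2 * C + n) * (j + 1)) := Real.one_le_exp (by positivity)
      nlinarith
    calc √V * (√(Real.exp ((2 * C + n) * (j + 1))) * √V)
        = (√V * √V) * √(Real.exp ((2 * C + n) * (j + 1))) := by ring
      _ = V * √(Real.exp ((2 * C + n) * (j + 1))) := by rw [Real.mul_self_sqrt hV0.le]
      _ ≤ _ := mul_le_mul_of_nonneg_left e2 hV0.le
  have h5 : ((j : ℝ) ^ 2 - 2 * j) / 4 ≤ D ^ 2 / (4 * s) := by
    rw [hD, mul_pow, hrs, mul_comm 4 s, mul_comm (max ((j : ℝ) - 1) 0 ^ 2) s,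
      mul_div_mul_left _ _ hs.ne']
    refine div_le_div_of_nonneg_right ?_ (by norm_num)
    rcases le_total ((j : ℝ) - 1) 0 with h5 | h5
    · rw [max_eq_right h5]
      have : (j : ℝ) ≤ 2 := by linarith
      nlinarith
    · rw [max_eq_left h5]
      nlinarith
  have h6 : Real.exp c₀ * (√V * √(m.real A) * Real.exp (-(D ^ 2 / (4 * s)))) ≤
      V * Real.exp ((c₀ + 2 * C + n) * (j + 1) - (j ^ 2 - 2 * j) / 8) ^ 2 := by
    calc Real.exp c₀ * (√V * √(m.real A) * Real.exp (-(D ^ 2 / (4 * s))))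
        ≤ Real.exp c₀ * (V * Real.exp ((2 * C + n) * (j + 1)) *
            Real.exp (-((j ^ 2 - 2 * j) / 4))) := by
          gcongr
      _ = V * Real.exp (c₀ + (2 * C + n) * (j + 1) - (j ^ 2 - 2 * j) / 4) := by
          rw [show c₀ + (2 * C + n) * ((j : ℝ) + 1) - ((j : ℝ) ^ 2 - 2 * j) / 4
            = c₀ + ((2 * C + n) * (j + 1) + -((j ^ 2 - 2 * j) / 4)) by ring, Real.exp_add,
            Real.exp_add]
          ring
      _ ≤ _ := by
          refine mul_le_mul_of_nonneg_left ?_ hV0.le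
          rw [← Real.exp_nat_mul]
          refine Real.exp_le_exp.2 ?_
          push_cast
          have e1 : (0 : ℝ) ≤ (2 * C + n) * (j + 1) := by positivity
          have e2 : (0 : ℝ) ≤ c₀ * j := by positivity
          nlinarith
  have h7 : m (ball x r) * G ^ 2 ≤ m (ball x r) *
      ENNReal.ofReal (Real.exp ((c₀ + 2 * C + n) * (j + 1) - (j ^ 2 - 2 * j) / 8)) ^ 2 := by
    refine (h3.trans (ENNReal.ofReal_le_ofReal h6)).trans (le_of_eq ?_)
    rw [ENNReal.ofReal_mul hV0.le, ENNReal.ofReal_pow (Real.exp_pos _).le, hVd,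
      ofReal_measureReal (g.fin _ _).ne]
  have hm0 : m (ball x r) ≠ 0 := by
    have := g.full
    exact (isOpen_ball.measure_pos m ⟨x, mem_ball_self hr0⟩).ne'
  have h8 := (ENNReal.mul_le_mul_iff_right hm0 (g.fin x r).ne).1 h7
  by_contra hlt
  exact absurd h8 (not_le.2 (ENNReal.pow_lt_pow_left two_ne_zero (not_le.1 hlt)))

/-- weighted tail of the kernel -/
theorem tail (g : RG.GeoN m n) (k : KU m q c₀) (hc₀ : 0 ≤ c₀) (L : ℝ) (hL : 0 ≤ L) :
    ∃ C : ℝ, 1 ≤ C ∧ ∀ s, 0 < s → s ≤ 1 → ∀ (x : M) (R : ℝ), 0 ≤ R →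
      ∫⁻ w in {w | R ≤ dist x w}, q s x w * ENNReal.ofReal (Real.exp (L * (dist x w / √s))) ∂m ≤
        ENNReal.ofReal (C * Real.exp (-(R ^ 2 / (32 * s)))) := by
  obtain ⟨C, hC, hV⟩ := vol_all g
  set b : ℝ := c₀ + 2 * C + n + L with hb
  have hb0 : 0 ≤ b := by rw [hb]; positivity
  set B : ℝ := b + 4 * (b + 5 / 4) ^ 2 with hB
  have hB0 : 0 ≤ B := by rw [hB]; positivity
  refine ⟨2 * Real.exp (B + 1 / 16), ?_, fun s hs hs1 x R hR => ?_⟩
  · have := Real.one_le_exp (show 0 ≤ B + 1 / 16 by linarith)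
    linarith
  set r := √s with hr
  have hr0 : 0 < r := Real.sqrt_pos.2 hs
  have hrs : r ^ 2 = s := Real.sq_sqrt hs.le
  have hdm : Measurable fun w => dist x w := (continuous_const.dist continuous_id).measurable
  set A : ℕ → Set M := fun j => {w | j * r ≤ dist x w ∧ dist x w < (j + 1) * r} with hA
  have hcov : {w | R ≤ dist x w} ⊆ ⋃ j, A j ∩ {w | R ≤ dist x w} := by
    intro w hw
    rw [mem_iUnion]
    refine ⟨⌊dist x w / r⌋₊, ⟨?_, ?_⟩, hw⟩
    · exact (le_div_iff₀ hr0).1 (Nat.floor_le (by positivity))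
    · exact (div_lt_iff₀ hr0).1 (Nat.lt_floor_add_one _)
  have hterm : ∀ j : ℕ, ∫⁻ w in A j ∩ {w | R ≤ dist x w},
      q s x w * ENNReal.ofReal (Real.exp (L * (dist x w / r))) ∂m ≤
        ENNReal.ofReal (Real.exp (B + 1 / 16 - R ^ 2 / (32 * s))) * (1 / 2) ^ j := by
    intro j
    have hj0 : (0 : ℝ) ≤ j := j.cast_nonneg
    rcases le_or_gt ((j + 1 : ℝ) * r) R with hle | hgt
    · have : A j ∩ {w | R ≤ dist x w} = ∅ := by
        ext w
        simp only [hA, mem_inter_iff, mem_setOf_eq, mem_empty_iff_false, iff_false, not_and]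
        intro h1 h2
        linarith [h1.2]
      rw [this]
      simp
    · have hmA : MeasurableSet (A j) :=
        (measurableSet_le measurable_const hdm).inter (measurableSet_lt hdm measurable_const)
      have h1 : ∫⁻ w in A j ∩ {w | R ≤ dist x w},
          q s x w * ENNReal.ofReal (Real.exp (L * (dist x w / r))) ∂m ≤
          ∫⁻ w in A j, q s x w * ENNReal.ofReal (Real.exp (L * (j + 1))) ∂m := by
        refine (lintegral_mono_set inter_subset_left).trans ?_
        refine setLIntegral_mono' hmA fun w hw => mul_le_mul_right ?_ _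
        refine ENNReal.ofReal_le_ofReal (Real.exp_le_exp.2 (mul_le_mul_of_nonneg_left ?_ hL))
        exact ((div_lt_iff₀ hr0).2 hw.2).le
      refine h1.trans ?_
      have hmq : Measurable fun w => q s x w := (k.meas s hs).comp measurable_prodMk_left
      rw [lintegral_mul_const _ hmq]
      have h2 := annulus g k hc₀ hC hV hs hs1 x j
      refine (mul_le_mul_left h2 _).trans ?_
      have h3 : ((1 : ℝ≥0∞) / 2) ^ j = ENNReal.ofReal ((1 / 2) ^ j) := by
        rw [ENNReal.ofReal_pow (by norm_num), ENNReal.ofReal_div_of_pos (by norm_num)]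
        simp
      rw [h3, ← ENNReal.ofReal_mul (Real.exp_pos _).le, ← ENNReal.ofReal_mul (Real.exp_pos _).le]
      refine ENNReal.ofReal_le_ofReal ?_
      rw [← Real.exp_add]
      have h4 : Real.exp (-(j : ℝ)) ≤ (1 / 2) ^ j := by
        rw [show (-(j : ℝ)) = j * (-1) by ring, Real.exp_nat_mul]
        refine pow_le_pow_left₀ (Real.exp_pos _).le ?_ j
        rw [Real.exp_neg, one_div]
        exact inv_anti₀ (by norm_num) (by linarith [Real.add_one_le_exp (1 : ℝ)])
      refine le_trans ?_ (mul_le_mul_of_nonneg_left h4 (Real.exp_pos _).le)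
      rw [← Real.exp_add]
      refine Real.exp_le_exp.2 ?_
      have h5 : R ^ 2 / (32 * s) ≤ (j + 1) ^ 2 / 32 := by
        rw [div_le_div_iff₀ (by positivity) (by norm_num), ← hrs]
        have : R ^ 2 ≤ ((j + 1) * r) ^ 2 := pow_le_pow_left₀ hR hgt.le 2
        nlinarith
      have h6 : (b + 5 / 4) * j - j ^ 2 / 16 ≤ 4 * (b + 5 / 4) ^ 2 := by
        nlinarith [sq_nonneg ((j : ℝ) / 4 - 2 * (b + 5 / 4))]
      have h7 : (c₀ + 2 * C + n) * ((j : ℝ) + 1) + L * (j + 1) = b * (j + 1) := by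
        rw [hb]; ring
      have h8 : (c₀ + 2 * C + ↑n) * ((j : ℝ) + 1) - (↑j ^ 2 - 2 * ↑j) / 8 + L * (↑j + 1)
          = b * (j + 1) - (↑j ^ 2 - 2 * ↑j) / 8 := by
        rw [← h7]; ring
      rw [h8, hB]
      nlinarith [sq_nonneg ((j : ℝ) - 1)]
  calc ∫⁻ w in {w | R ≤ dist x w}, q s x w * ENNReal.ofReal (Real.exp (L * (dist x w / r))) ∂m
      ≤ ∫⁻ w in ⋃ j, A j ∩ {w | R ≤ dist x w},
          q s x w * ENNReal.ofReal (Real.exp (L * (dist x w / r))) ∂m := lintegral_mono_set hcov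
    _ ≤ ∑' j, ∫⁻ w in A j ∩ {w | R ≤ dist x w},
          q s x w * ENNReal.ofReal (Real.exp (L * (dist x w / r))) ∂m :=
        lintegral_iUnion_le _ _
    _ ≤ ∑' j, ENNReal.ofReal (Real.exp (B + 1 / 16 - R ^ 2 / (32 * s))) * (1 / 2) ^ j :=
        ENNReal.tsum_le_tsum hterm
    _ = ENNReal.ofReal (Real.exp (B + 1 / 16 - R ^ 2 / (32 * s))) * 2 := by
        rw [ENNReal.tsum_mul_left, ENNReal.tsum_geometric]
        simp
    _ = ENNReal.ofReal (2 * Real.exp (B + 1 / 16) * Real.exp (-(R ^ 2 / (32 * s)))) := by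
        rw [sub_eq_add_neg, Real.exp_add, show (2 : ℝ≥0∞) = ENNReal.ofReal 2 by simp,
          ← ENNReal.ofReal_mul (by positivity)]
        congr 1
        ring

/-- volumes of balls of comparable radii -/
theorem vol_half (g : RG.GeoN m n) : ∃ c : ℝ, 0 < c ∧ ∀ (x : M) (s : ℝ), 0 < s → s ≤ 1 →
    c * m.real (ball x (√s)) ≤ m.real (ball x (√(s / 2))) := by
  obtain ⟨c, hc, hc1, hbg⟩ := bg_real g
  refine ⟨c * (1 / 2) ^ n, by positivity, fun x s hs hs1 => ?_⟩
  have h1 : √(s / 2) = √s * √(1 / 2) := by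
    rw [← Real.sqrt_mul hs.le]; congr 1; ring
  have h0 : 0 < √s := Real.sqrt_pos.2 hs
  have h2 : √(1 / 2 : ℝ) ≤ 1 := Real.sqrt_le_one.2 (by norm_num)
  have h3 : (1 / 2 : ℝ) ≤ √(1 / 2) := Real.le_sqrt_of_sq_le (by norm_num)
  have h4 := hbg x (√(s / 2)) (√s) (by positivity) (by rw [h1]; nlinarith)
    (by have := Real.sqrt_le_one.2 hs1; linarith)
  refine le_trans ?_ h4
  refine mul_le_mul_of_nonneg_right ?_ measureReal_nonneg
  refine mul_le_mul_of_nonneg_left ?_ hc.le
  refine pow_le_pow_left₀ (by norm_num) ?_ n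
  rw [h1, mul_div_cancel_left₀ _ h0.ne']
  exact h3

/-- comparison of volumes at different centres -/
theorem vol_move (g : RG.GeoN m n) : ∃ C : ℝ, 1 ≤ C ∧ ∀ (x y : M) (r : ℝ), 0 < r → r ≤ 1 →
    m.real (ball x r) ≤ Real.exp (C * (1 + dist x y / r)) * m.real (ball y r) := by
  obtain ⟨C, hC, hV⟩ := vol_all g
  refine ⟨2 * C + n, by have : (0 : ℝ) ≤ n := n.cast_nonneg
                        linarith, fun x y r hr hr1 => ?_⟩
  set d := dist x y with hd
  have hd0 : 0 ≤ d := dist_nonneg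
  set X : ℝ := 1 + d / r with hX
  have hX1 : 1 ≤ X := by rw [hX]; have : 0 ≤ d / r := by positivity
                         linarith
  have h1 := hV y r (r + d) hr hr1 (by linarith)
  have h2 : m.real (ball x r) ≤ m.real (ball y (r + d)) := by
    refine measureReal_mono (fun w hw => ?_) (g.fin _ _).ne
    rw [mem_ball] at *
    have := dist_triangle w x y
    linarith
  refine (h2.trans h1).trans (mul_le_mul_of_nonneg_right ?_ measureReal_nonneg)
  have e0 : (r + d) / r = X := by rw [hX]; field_simp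
  rw [e0]
  have e1 : C ≤ Real.exp (C * X) := by
    have := Real.add_one_le_exp (C * X)
    nlinarith
  have e2 : X ^ n ≤ Real.exp (n * X) := by
    rw [Real.exp_nat_mul]
    exact pow_le_pow_left₀ (by linarith) (by linarith [Real.add_one_le_exp X]) n
  have e3 : Real.exp (C * (r + d)) ≤ Real.exp (C * X) := by
    refine Real.exp_le_exp.2 (mul_le_mul_of_nonneg_left ?_ (by linarith))
    have : r + d = r * X := by rw [hX]; field_simp
    rw [this]
    nlinarith
  calc C * X ^ n * Real.exp (C * (r + d))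
      ≤ Real.exp (C * X) * Real.exp (n * X) * Real.exp (C * X) := by gcongr
    _ = Real.exp ((2 * C + n) * X) := by
        rw [← Real.exp_add, ← Real.exp_add]
        congr 1
        ring

/-- the bound on the diagonal -/
theorem diag (g : RG.GeoN m n) (k : KU m q c₀) (hc₀ : 0 ≤ c₀) :
    ∃ C : ℝ, 1 ≤ C ∧ ∀ s, 0 < s → s ≤ 1 → ∀ x z : M,
      q s x z ≤ ENNReal.ofReal (C * (√(m.real (ball x (√s)) * m.real (ball z (√s))))⁻¹) := by
  obtain ⟨c, hc, hh⟩ := vol_half g
  refine ⟨max 1 (c₀ / c), le_max_left _ _, fun s hs hs1 x z => ?_⟩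
  have hs2 : 0 < s / 2 := by linarith
  set vx := m.real (ball x (√s)) with hvx
  set vz := m.real (ball z (√s)) with hvz
  set ux := m.real (ball x (√(s / 2))) with hux
  set uz := m.real (ball z (√(s / 2))) with huz
  have hvx0 : 0 < vx := vol_pos g x (Real.sqrt_pos.2 hs)
  have hvz0 : 0 < vz := vol_pos g z (Real.sqrt_pos.2 hs)
  have hux0 : 0 < ux := vol_pos g x (Real.sqrt_pos.2 hs2)
  have huz0 : 0 < uz := vol_pos g z (Real.sqrt_pos.2 hs2)
  have hL : ∀ w : M, (∫⁻ v, q (s / 2) w v ^ 2 ∂m) ≤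
      ENNReal.ofReal (c₀ / m.real (ball w (√(s / 2)))) := by
    intro w
    have h1 := k.l2 (s / 2) hs2 (by linarith) w
    have hp : 0 < m.real (ball w (√(s / 2))) := vol_pos g w (Real.sqrt_pos.2 hs2)
    rw [ENNReal.ofReal_div_of_pos hp, measureReal_def, ENNReal.ofReal_toReal (g.fin _ _).ne]
    refine (ENNReal.le_div_iff_mul_le (Or.inl ?_) (Or.inl (g.fin _ _).ne)).2 h1
    have := g.full
    exact (isOpen_ball.measure_pos m ⟨w, mem_ball_self (Real.sqrt_pos.2 hs2)⟩).ne'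
  have h1 : q s x z = ∫⁻ w, q (s / 2) x w * q (s / 2) z w ∂m := by
    have := k.semi (s / 2) hs2 x z
    rw [show 2 * (s / 2) = s by ring] at this
    rw [this]
    refine lintegral_congr fun w => ?_
    rw [k.symm (s / 2) hs2 w z]
  have hm : ∀ w : M, AEMeasurable (fun v => q (s / 2) w v) m := fun w =>
    ((k.meas (s / 2) hs2).comp measurable_prodMk_left).aemeasurable
  have h2 := ENNReal.lintegral_mul_le_Lp_mul_Lq m Real.HolderConjugate.two_two (hm x) (hm z)
  rw [h1]
  refine le_trans (le_of_eq (lintegral_congr fun w => rfl)) (h2.trans ?_)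
  have h3 : ∀ w : M, (∫⁻ v, q (s / 2) w v ^ (2 : ℝ) ∂m) ^ (1 / (2 : ℝ)) ≤
      ENNReal.ofReal (√(c₀ / m.real (ball w (√(s / 2))))) := by
    intro w
    have e1 : ∫⁻ v, q (s / 2) w v ^ (2 : ℝ) ∂m = ∫⁻ v, q (s / 2) w v ^ 2 ∂m :=
      lintegral_congr fun v => by
        rw [show (2 : ℝ) = ((2 : ℕ) : ℝ) by norm_num, ENNReal.rpow_natCast]
    rw [e1, Real.sqrt_eq_rpow, ← ENNReal.ofReal_rpow_of_nonneg (by positivity) (by norm_num)]
    exact ENNReal.rpow_le_rpow (hL w) (by norm_num)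
  refine (mul_le_mul' (h3 x) (h3 z)).trans ?_
  rw [← ENNReal.ofReal_mul (Real.sqrt_nonneg _)]
  refine ENNReal.ofReal_le_ofReal ?_
  rw [← Real.sqrt_mul (by positivity), ← hux, ← huz]
  have h4 : c₀ / ux * (c₀ / uz) ≤ (c₀ / c) ^ 2 * (vx * vz)⁻¹ := by
    have a1 : c₀ / ux ≤ c₀ / (c * vx) := div_le_div_of_nonneg_left hc₀ (by positivity) (hh x s hs hs1)
    have a2 : c₀ / uz ≤ c₀ / (c * vz) := div_le_div_of_nonneg_left hc₀ (by positivity) (hh z s hs hs1)
    refine (mul_le_mul a1 a2 (by positivity) (by positivity)).trans (le_of_eq ?_)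
    field_simp
  refine (Real.sqrt_le_sqrt h4).trans ?_
  rw [Real.sqrt_mul (sq_nonneg _), Real.sqrt_sq (by positivity), Real.sqrt_inv]
  exact mul_le_mul_of_nonneg_right (le_max_right _ _) (by positivity)

/-- Gaussian upper bound, volume form -/
theorem up_vol (g : RG.GeoN m n) (k : KU m q c₀) (hc₀ : 0 ≤ c₀) :
    ∃ C : ℝ, 1 ≤ C ∧ ∀ s, 0 < s → s ≤ 1 → ∀ x z : M,
      q s x z ≤ ENNReal.ofReal (C * (√(m.real (ball x (√s)) * m.real (ball z (√s))))⁻¹ *
        Real.exp (-(dist x z ^ 2 / (64 * s)))) := by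
  obtain ⟨c, hc, hh⟩ := vol_half g
  obtain ⟨C₁, hC₁, hmv⟩ := vol_move g
  obtain ⟨C₂, hC₂, hdg⟩ := diag g k hc₀
  obtain ⟨C₃, hC₃, htl⟩ := tail g k hc₀ C₁ (by linarith)
  refine ⟨max 1 (2 * C₂ * Real.exp C₁ * C₃ / c), le_max_left _ _, fun s₂ hs₂ hs₂1 x z => ?_⟩
  obtain ⟨s, rfl⟩ : ∃ s, s₂ = 2 * s := ⟨s₂ / 2, by ring⟩
  have hs : 0 < s := by linarith
  have hs1 : s ≤ 1 := by linarith
  set r := √s with hr
  have hr0 : 0 < r := Real.sqrt_pos.2 hs
  have hr1 : r ≤ 1 := Real.sqrt_le_one.2 hs1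
  set d := dist x z with hd
  have hd0 : 0 ≤ d := dist_nonneg
  set v : M → ℝ := fun y => m.real (ball y r) with hv
  have hv0 : ∀ y, 0 < v y := fun y => vol_pos g y hr0
  -- kernel bound with the weight at the other point
  have hk : ∀ x z w : M, q s w z ≤ ENNReal.ofReal (C₂ * Real.exp C₁ * (√(v x * v z))⁻¹) *
      ENNReal.ofReal (Real.exp (C₁ * (dist x w / r))) := by
    intro x z w
    refine (hdg s hs hs1 w z).trans ?_
    rw [← ENNReal.ofReal_mul (by positivity)]
    refine ENNReal.ofReal_le_ofReal ?_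
    have h1 : v x ≤ Real.exp (C₁ * (1 + dist x w / r)) * v w := hmv x w r hr0 hr1
    have h2 : √(v x * v z) ≤ Real.exp (C₁ * (1 + dist x w / r)) * √(v w * v z) := by
      have hE : 1 ≤ Real.exp (C₁ * (1 + dist x w / r)) := Real.one_le_exp (by positivity)
      have e1 : v x * v z ≤ Real.exp (C₁ * (1 + dist x w / r)) ^ 2 * (v w * v z) := by
        have e2 : v x * v z ≤ Real.exp (C₁ * (1 + dist x w / r)) * v w * v z :=
          mul_le_mul_of_nonneg_right h1 (hv0 z).le
        have e3 : 0 ≤ v w * v z := (mul_pos (hv0 w) (hv0 z)).le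
        nlinarith [mul_nonneg (mul_nonneg (sub_nonneg.2 hE) (Real.exp_pos
          (C₁ * (1 + dist x w / r))).le) e3]
      refine (Real.sqrt_le_sqrt e1).trans (le_of_eq ?_)
      rw [Real.sqrt_mul (sq_nonneg _), Real.sqrt_sq (Real.exp_pos _).le]
    have h3 : (√(v w * v z))⁻¹ ≤ Real.exp (C₁ * (1 + dist x w / r)) * (√(v x * v z))⁻¹ := by
      have p1 : 0 < √(v w * v z) := Real.sqrt_pos.2 (mul_pos (hv0 w) (hv0 z))
      have p2 : 0 < √(v x * v z) := Real.sqrt_pos.2 (mul_pos (hv0 x) (hv0 z))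
      rw [inv_eq_one_div, ← div_eq_mul_inv, div_le_div_iff₀ p1 p2, one_mul]
      exact h2
    calc C₂ * (√(v w * v z))⁻¹
        ≤ C₂ * (Real.exp (C₁ * (1 + dist x w / r)) * (√(v x * v z))⁻¹) :=
          mul_le_mul_of_nonneg_left h3 (by linarith)
      _ = _ := by
          rw [mul_add, mul_one, Real.exp_add]; ring
  -- one half
  have hone : ∀ x z : M, ∫⁻ w in {w | d / 2 ≤ dist x w}, q s x w * q s w z ∂m ≤
      ENNReal.ofReal (C₂ * Real.exp C₁ * (√(v x * v z))⁻¹) *
        ENNReal.ofReal (C₃ * Real.exp (-((d / 2) ^ 2 / (32 * s)))) := by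
    intro x z
    have hmq : Measurable fun w => q s x w := (k.meas s hs).comp measurable_prodMk_left
    have hdm : Measurable fun w => dist x w := (continuous_const.dist continuous_id).measurable
    calc ∫⁻ w in {w | d / 2 ≤ dist x w}, q s x w * q s w z ∂m
        ≤ ∫⁻ w in {w | d / 2 ≤ dist x w},
          ENNReal.ofReal (C₂ * Real.exp C₁ * (√(v x * v z))⁻¹) *
            (q s x w * ENNReal.ofReal (Real.exp (C₁ * (dist x w / r)))) ∂m := by
          refine lintegral_mono fun w => ?_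
          refine (mul_le_mul_right (hk x z w) _).trans (le_of_eq ?_)
          ring
      _ = ENNReal.ofReal (C₂ * Real.exp C₁ * (√(v x * v z))⁻¹) *
          ∫⁻ w in {w | d / 2 ≤ dist x w},
            (q s x w * ENNReal.ofReal (Real.exp (C₁ * (dist x w / r)))) ∂m := by
          refine lintegral_const_mul _ (hmq.mul ?_)
          fun_prop
      _ ≤ _ := mul_le_mul_right (htl s hs hs1 x (d / 2) (by positivity)) _
  have hsplit : q (2 * s) x z ≤ ENNReal.ofReal (2 * C₂ * Real.exp C₁ * C₃ *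
      (√(v x * v z))⁻¹ * Real.exp (-((d / 2) ^ 2 / (32 * s)))) := by
    rw [k.semi s hs x z]
    have huniv : (univ : Set M) ⊆ {w | d / 2 ≤ dist x w} ∪ {w | d / 2 ≤ dist z w} := by
      intro w _
      rcases le_or_gt (d / 2) (dist x w) with h | h
      · exact Or.inl h
      · right
        have := dist_triangle x w z
        rw [dist_comm w z] at this
        simp only [mem_setOf_eq]
        linarith
    have h2 : ∫⁻ w in {w | d / 2 ≤ dist z w}, q s x w * q s w z ∂m ≤
        ENNReal.ofReal (C₂ * Real.exp C₁ * (√(v z * v x))⁻¹) *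
        ENNReal.ofReal (C₃ * Real.exp (-((d / 2) ^ 2 / (32 * s)))) := by
      refine le_trans (le_of_eq ?_) (hone z x)
      refine lintegral_congr fun w => ?_
      rw [k.symm s hs x w, k.symm s hs w z, mul_comm]
    calc ∫⁻ w, q s x w * q s w z ∂m = ∫⁻ w in univ, q s x w * q s w z ∂m := by simp
      _ ≤ ∫⁻ w in {w | d / 2 ≤ dist x w} ∪ {w | d / 2 ≤ dist z w}, q s x w * q s w z ∂m :=
          lintegral_mono_set huniv
      _ ≤ (∫⁻ w in {w | d / 2 ≤ dist x w}, q s x w * q s w z ∂m) +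
          ∫⁻ w in {w | d / 2 ≤ dist z w}, q s x w * q s w z ∂m := lintegral_union_le _ _ _
      _ ≤ _ := add_le_add (hone x z) h2
      _ = _ := by
          rw [mul_comm (v z) (v x), ← two_mul, ← ENNReal.ofReal_mul (by positivity),
            show (2 : ℝ≥0∞) = ENNReal.ofReal 2 by simp, ← ENNReal.ofReal_mul (by norm_num)]
          congr 1
          ring
  refine hsplit.trans (ENNReal.ofReal_le_ofReal ?_)
  have e1 : (d / 2) ^ 2 / (32 * s) = d ^ 2 / (64 * (2 * s)) := by
    field_simp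
    ring
  rw [e1]
  refine mul_le_mul_of_nonneg_right ?_ (Real.exp_pos _).le
  -- change of the radius in the volumes
  set V : M → ℝ := fun y => m.real (ball y (√(2 * s))) with hVd
  have hVp : ∀ y, 0 < V y := fun y => vol_pos g y (Real.sqrt_pos.2 hs₂)
  have hVv : ∀ y, c * V y ≤ v y := by
    intro y
    have := hh y (2 * s) hs₂ hs₂1
    rwa [show 2 * s / 2 = s by ring] at this
  have h3 : c * √(V x * V z) ≤ √(v x * v z) := by
    have e2 : c ^ 2 * (V x * V z) ≤ v x * v z := by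
      calc c ^ 2 * (V x * V z) = (c * V x) * (c * V z) := by ring
        _ ≤ _ := mul_le_mul (hVv x) (hVv z) (mul_pos hc (hVp z)).le (hv0 x).le
    refine le_trans (le_of_eq ?_) (Real.sqrt_le_sqrt e2)
    rw [Real.sqrt_mul (sq_nonneg _), Real.sqrt_sq hc.le]
  have p1 : 0 < √(V x * V z) := Real.sqrt_pos.2 (mul_pos (hVp x) (hVp z))
  have p2 : 0 < √(v x * v z) := Real.sqrt_pos.2 (mul_pos (hv0 x) (hv0 z))
  have h4 : (√(v x * v z))⁻¹ ≤ c⁻¹ * (√(V x * V z))⁻¹ := by
    rw [← mul_inv]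
    exact inv_anti₀ (mul_pos hc p1) h3
  calc 2 * C₂ * Real.exp C₁ * C₃ * (√(v x * v z))⁻¹
      ≤ 2 * C₂ * Real.exp C₁ * C₃ * (c⁻¹ * (√(V x * V z))⁻¹) :=
        mul_le_mul_of_nonneg_left h4 (by positivity)
    _ = 2 * C₂ * Real.exp C₁ * C₃ / c * (√(V x * V z))⁻¹ := by ring
    _ ≤ _ := mul_le_mul_of_nonneg_right (le_max_right _ _) (by positivity)

/-- Gaussian upper bound with the weight `exp (A d(x,o))` -/
theorem up_exp (g : RG.GeoN m n) (k : KU m q c₀) (hc₀ : 0 ≤ c₀) (o : M) :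
    ∃ A : ℝ, 1 ≤ A ∧ ∀ s, 0 < s → s ≤ 1 → ∀ x z : M,
      q s x z ≤ ENNReal.ofReal (A * Real.exp (A * dist x o) * s ^ (-(n / 2 : ℝ)) *
        Real.exp (-(dist x z ^ 2 / (A * s)))) := by
  obtain ⟨C, hC, hup⟩ := up_vol g k hc₀
  obtain ⟨b, hb, hlow⟩ := vol_low g o
  set A : ℝ := max 128 (max b (C * b * Real.exp (32 * b ^ 2))) with hA
  have hA1 : 128 ≤ A := le_max_left _ _
  have hA2 : b ≤ A := (le_max_left _ _).trans (le_max_right _ _)
  have hA3 : C * b * Real.exp (32 * b ^ 2) ≤ A := (le_max_right _ _).trans (le_max_right _ _)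
  refine ⟨A, by linarith, fun s hs hs1 x z => (hup s hs hs1 x z).trans
    (ENNReal.ofReal_le_ofReal ?_)⟩
  set r := √s with hr
  have hr0 : 0 < r := Real.sqrt_pos.2 hs
  have hr1 : r ≤ 1 := Real.sqrt_le_one.2 hs1
  have hrs : r ^ 2 = s := Real.sq_sqrt hs.le
  set d := dist x z with hd
  have hd0 : 0 ≤ d := dist_nonneg
  set e := dist x o with he
  have he0 : 0 ≤ e := dist_nonneg
  have hx := hlow x r hr0 hr1
  have hz := hlow z r hr0 hr1
  have hzo : dist z o ≤ e + d := by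
    have := dist_triangle z x o
    rw [dist_comm z x] at this
    linarith
  set w : ℝ := b⁻¹ * Real.exp (-(b * e)) * Real.exp (-(b * d)) * r ^ n with hw
  have hw0 : 0 < w := by positivity
  have h1 : w ≤ m.real (ball x r) := by
    refine le_trans ?_ hx
    rw [hw]
    have : Real.exp (-(b * d)) ≤ 1 := Real.exp_le_one_iff.2 (by
      have : 0 ≤ b * d := by positivity
      linarith)
    refine mul_le_mul_of_nonneg_right ?_ (by positivity)
    have h2 : 0 ≤ b⁻¹ * Real.exp (-(b * e)) := by positivity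
    nlinarith
  have h2 : w ≤ m.real (ball z r) := by
    refine le_trans ?_ hz
    rw [hw, mul_assoc b⁻¹, ← Real.exp_add]
    refine mul_le_mul_of_nonneg_right ?_ (by positivity)
    refine mul_le_mul_of_nonneg_left (Real.exp_le_exp.2 ?_) (by positivity)
    nlinarith
  have h3 : w ≤ √(m.real (ball x r) * m.real (ball z r)) := by
    refine Real.le_sqrt_of_sq_le ?_
    rw [sq]
    exact mul_le_mul h1 h2 hw0.le (hw0.le.trans h1)
  have h4 : (√(m.real (ball x r) * m.real (ball z r)))⁻¹ ≤ w⁻¹ := inv_anti₀ hw0 h3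
  have h5 : w⁻¹ = b * Real.exp (b * e) * Real.exp (b * d) * s ^ (-(n / 2 : ℝ)) := by
    have e1 : s ^ (-(n / 2 : ℝ)) = (r ^ n)⁻¹ := by
      rw [Real.rpow_neg hs.le, hr, Real.sqrt_eq_rpow, ← Real.rpow_natCast, ← Real.rpow_mul hs.le]
      congr 2
      ring
    rw [e1, hw, Real.exp_neg, Real.exp_neg]
    field_simp
  have h6 : Real.exp (b * d) * Real.exp (-(d ^ 2 / (64 * s))) ≤
      Real.exp (32 * b ^ 2) * Real.exp (-(d ^ 2 / (A * s))) := by
    rw [← Real.exp_add, ← Real.exp_add]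
    refine Real.exp_le_exp.2 ?_
    have e1 : d ^ 2 / (A * s) ≤ d ^ 2 / (128 * s) :=
      div_le_div_of_nonneg_left (sq_nonneg _) (by positivity)
        (mul_le_mul_of_nonneg_right hA1 hs.le)
    have e2 : d ^ 2 / (64 * s) = 2 * (d ^ 2 / (128 * s)) := by
      field_simp
      ring
    have e3 : d ^ 2 / 128 ≤ d ^ 2 / (128 * s) :=
      div_le_div_of_nonneg_left (sq_nonneg _) (by positivity) (by linarith)
    have e4 : b * d ≤ 32 * b ^ 2 + d ^ 2 / 128 := by nlinarith [sq_nonneg (d - 64 * b)]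
    linarith
  calc C * (√(m.real (ball x r) * m.real (ball z r)))⁻¹ * Real.exp (-(d ^ 2 / (64 * s)))
      ≤ C * w⁻¹ * Real.exp (-(d ^ 2 / (64 * s))) := by gcongr
    _ = C * b * Real.exp (b * e) * s ^ (-(n / 2 : ℝ)) *
        (Real.exp (b * d) * Real.exp (-(d ^ 2 / (64 * s)))) := by rw [h5]; ring
    _ ≤ C * b * Real.exp (b * e) * s ^ (-(n / 2 : ℝ)) *
        (Real.exp (32 * b ^ 2) * Real.exp (-(d ^ 2 / (A * s)))) := by gcongr
    _ = (C * b * Real.exp (32 * b ^ 2)) * Real.exp (b * e) * s ^ (-(n / 2 : ℝ)) *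
        Real.exp (-(d ^ 2 / (A * s))) := by ring
    _ ≤ A * Real.exp (A * e) * s ^ (-(n / 2 : ℝ)) * Real.exp (-(d ^ 2 / (A * s))) := by
        gcongr

/-- the tail of the kernel, uniform in the centre -/
theorem tail' (g : RG.GeoN m n) (k : KU m q c₀) (hc₀ : 0 ≤ c₀) :
    ∃ C : ℝ, 1 ≤ C ∧ ∀ s, 0 < s → s ≤ 1 → ∀ (x : M) (R : ℝ), 0 ≤ R →
      ∫⁻ w in {w | R ≤ dist x w}, q s x w ∂m ≤
        ENNReal.ofReal (C * Real.exp (-(R ^ 2 / (32 * s)))) := by
  obtain ⟨C, hC, h⟩ := tail g k hc₀ 0 le_rfl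
  exact ⟨C, hC, fun s hs hs1 x R hR => by simpa using h s hs hs1 x R hR⟩

end

end Vale.Agent.P242.H751
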