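import Vale.Agent.P242.H751.Up
import Vale.Agent.P242.H751.DavSet
import Vale.Agent.P242.H520.KerDefs

/-! P242, package F-UP (helper751): Gaussian upper bound (UP) and tail (K6) for the heat kernel. -/

set_option linter.all false

open MeasureTheory Filter Topology Set Metric
open scoped ENNReal NNReal

universe u

namespace Vale.Agent.P242.H751

open Vale.Agent.P233 Vale.Agent.P233.RA

section

variable {M : Type u} [MetricSpace M] [CompleteSpace M] [MeasurableSpace M] [BorelSpace M]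
  [SecondCountableTopology M] {m : Measure M} {n : ℕ} {K : ℝ} {θ : M → ℝ} {p : ℝ → M → M → ℝ}

theorem lint_eq (k : H520.Ker0 m p) {s : ℝ} (hs : 0 < s) (x : M) (E : Set M) :
    ∫⁻ w in E, ENNReal.ofReal (p s x w) ∂m = ENNReal.ofReal (∫ w in E, p s x w ∂m) :=
  (ofReal_integral_eq_lintegral_ofReal (k.int s hs x).integrableOn
    (ae_of_all _ fun w => k.nonneg s hs x w)).symm

theorem pt_ind (k : H520.Ker0 m p) {s : ℝ} (x : M) {E : Set M} (hE : MeasurableSet E) :
    H520.pt m p s (E.indicator fun _ => 1) x = ∫ w in E, p s x w ∂m := by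
  unfold H520.pt
  rw [← integral_indicator hE]
  refine integral_congr_ae (ae_of_all _ fun w => ?_)
  by_cases hw : w ∈ E <;> simp [hw]

/-- integrated form of Davies-Gaffney -/
theorem dav_ker (hN : N2.NSp2 m n K θ) (k : H520.Ker0 m p) {s : ℝ} (hs : 0 < s) {A B : Set M}
    (hA : MeasurableSet A) (hB : MeasurableSet B) (hmA : m A ≠ ∞) (hmB : m B ≠ ∞) {D : ℝ}
    (hD : 0 ≤ D) (hAB : ∀ a ∈ A, ∀ b ∈ B, D ≤ dist a b) :
    ∫⁻ x in A, ∫⁻ z in B, ENNReal.ofReal (p s x z) ∂m ∂m ≤
      ENNReal.ofReal (√(m.real A) * √(m.real B) * Real.exp (-(D ^ 2 / (4 * s)))) := by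
  have h1 := davies_set hN hA hB hmA hmB hD (show 0 < 2 * s by linarith) hAB
  have hQ : Q m (2 * s) (ind m B) = (sob m).P s (ind m B) := by
    unfold Q
    rw [show 2 * s / 2 = s by ring]
  rw [hQ, show 2 * (2 * s) = 4 * s by ring] at h1
  have hrep := k.rep s hs (ind m B) (ind_mem hB hmB)
  have e1 : I (ind m A * (sob m).P s (ind m B)) = ∫ x in A, (∫ z in B, p s x z ∂m) ∂m := by
    unfold I
    rw [← integral_indicator hA]
    refine integral_congr_ae ?_
    filter_upwards [mul_ae (ind m A) ((sob m).P s (ind m B)), ind_ae (m := m) hA, hrep]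
      with x h2 h3 h4
    rw [h2, h3, h4]
    have h5 : H520.pt m p s (ind m B) x = ∫ z in B, p s x z ∂m := by
      rw [← pt_ind k x hB]
      unfold H520.pt
      refine integral_congr_ae ?_
      filter_upwards [ind_ae (m := m) hB] with z hz
      rw [hz]
    rw [h5]
    by_cases hx : x ∈ A <;> simp [hx]
  rw [e1] at h1
  refine le_trans (le_of_eq ?_) (ENNReal.ofReal_le_ofReal h1)
  have : IsFiniteMeasure (m.restrict A) := ⟨by
    rw [Measure.restrict_apply_univ]; exact hmA.lt_top⟩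
  have : IsFiniteMeasure (m.restrict B) := ⟨by
    rw [Measure.restrict_apply_univ]; exact hmB.lt_top⟩
  have hc : Measurable fun z : M × M => p s z.1 z.2 := (k.cont s hs).measurable
  have hle : ∀ x, ∫ z in B, p s x z ∂m ≤ 1 := by
    intro x
    rw [← k.mass s hs x]
    exact setIntegral_le_integral (k.int s hs x) (ae_of_all _ fun w => k.nonneg s hs x w)
  have hge : ∀ x, 0 ≤ ∫ z in B, p s x z ∂m := fun x =>
    integral_nonneg fun w => k.nonneg s hs x w
  have hint : Integrable (fun x => ∫ z in B, p s x z ∂m) (m.restrict A) := by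
    refine Integrable.of_bound (C := 1) ?_ (ae_of_all _ fun x => ?_)
    · exact (hc.stronglyMeasurable.integral_prod_right' (ν := m.restrict B)).aestronglyMeasurable
    · rw [Real.norm_eq_abs, abs_of_nonneg (hge x)]
      exact hle x
  rw [ofReal_integral_eq_lintegral_ofReal hint (ae_of_all _ hge)]
  exact lintegral_congr fun x => lint_eq k hs x B

/-- the kernel satisfies the hypotheses of the abstract Gaussian bound -/
theorem ku (g : RG.GeoN m n) (hN : N2.NSp2 m n K θ) (k : H520.Ker0 m p) :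
    ∃ c₀ : ℝ, 0 ≤ c₀ ∧ KU m (fun s x z => ENNReal.ofReal (p s x z)) c₀ := by
  obtain ⟨C, hC, hl⟩ := k.l2
  obtain ⟨C', hC', hh⟩ := k.har 1 one_pos
  refine ⟨max C C', hC.le.trans (le_max_left _ _), ?_, ?_, ?_, ?_, ?_, ?_, ?_⟩
  · exact fun s hs => (k.cont s hs).measurable.ennreal_ofReal
  · exact fun s hs x z => by simp only [k.symm s hs x z]
  · intro s hs x
    have := lint_eq k hs x univ
    rw [Measure.restrict_univ, k.mass s hs x] at this
    rw [this]
    simp
  · intro s hs x z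
    rw [show 2 * s = s + s by ring, k.semi s s hs hs x z]
    have hi : Integrable (fun w => p s x w * p s w z) m := by
      have h1 := (k.mem2 s hs x).integrable_mul (k.mem2 s hs z)
      refine h1.congr (ae_of_all _ fun w => ?_)
      simp only [Pi.mul_apply]
      rw [k.symm s hs w z]
    rw [ofReal_integral_eq_lintegral_ofReal hi (ae_of_all _ fun w =>
      mul_nonneg (k.nonneg s hs x w) (k.nonneg s hs w z))]
    exact lintegral_congr fun w => ENNReal.ofReal_mul (k.nonneg s hs x w)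
  · intro s hs hs1 x
    have h1 : ∫⁻ z, ENNReal.ofReal (p s x z) ^ 2 ∂m = ENNReal.ofReal (∫ z, p s x z ^ 2 ∂m) := by
      rw [ofReal_integral_eq_lintegral_ofReal ((k.mem2 s hs x).integrable_sq)
        (ae_of_all _ fun w => sq_nonneg _)]
      exact lintegral_congr fun w => (ENNReal.ofReal_pow (k.nonneg s hs x w) 2).symm
    have hV : 0 < m.real (ball x (√s)) := vol_pos g x (Real.sqrt_pos.2 hs)
    rw [h1, ← ofReal_measureReal (g.fin x (√s)).ne, ← ENNReal.ofReal_mul
      (integral_nonneg fun w => sq_nonneg _)]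
    refine ENNReal.ofReal_le_ofReal ?_
    have h2 := hl s hs hs1 x
    rw [← measureReal_def] at h2
    exact ((le_div_iff₀ hV).1 h2).trans (le_max_left _ _)
  · intro s hs hs1 x y E hE
    have h1 := hh s hs hs1 1 (E.indicator fun _ => 1) one_pos
      (measurable_const.indicator hE).aestronglyMeasurable
      (ae_of_all _ fun z => ⟨indicator_nonneg (fun _ _ => zero_le_one) z,
        indicator_le_self' (fun _ _ => zero_le_one) z⟩) x y
    rw [pt_ind k x hE, pt_ind k y hE, Real.one_rpow, one_mul,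
      show (1 : ℝ) + 1 = ((2 : ℕ) : ℝ) by norm_num, Real.rpow_natCast] at h1
    have hx0 : 0 ≤ ∫ w in E, p s x w ∂m := integral_nonneg fun w => k.nonneg s hs x w
    have hy0 : 0 ≤ ∫ w in E, p s y w ∂m := integral_nonneg fun w => k.nonneg s hs y w
    rw [lint_eq k hs x E, lint_eq k hs y E, ← ENNReal.ofReal_pow hx0,
      ← ENNReal.ofReal_mul (Real.exp_pos _).le]
    refine ENNReal.ofReal_le_ofReal (h1.trans ?_)
    rw [mul_comm]
    refine mul_le_mul_of_nonneg_right (Real.exp_le_exp.2 ?_) hy0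
    rw [mul_div_assoc]
    exact mul_le_mul_of_nonneg_right (le_max_right _ _) (by positivity)
  · intro s hs A B hA hB hmA hmB D hD hAB
    exact dav_ker hN k hs hA hB hmA hmB hD hAB

/-- **(UP), volume form**, no weight -/
theorem up_V (g : RG.GeoN m n) (hN : N2.NSp2 m n K θ) (k : H520.Ker0 m p) :
    ∃ C : ℝ, 1 ≤ C ∧ ∀ s, 0 < s → s ≤ 1 → ∀ x z : M,
      p s x z ≤ C * (√(m.real (ball x (√s)) * m.real (ball z (√s))))⁻¹ *
        Real.exp (-(dist x z ^ 2 / (64 * s))) := by
  obtain ⟨c₀, hc₀, hk⟩ := ku g hN k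
  obtain ⟨C, hC, h⟩ := up_vol g hk hc₀
  exact ⟨C, hC, fun s hs hs1 x z => (ENNReal.ofReal_le_ofReal_iff (by positivity)).1
    (h s hs hs1 x z)⟩

/-- **(UP)** with the weight `exp (A d(x,o))` -/
theorem up (g : RG.GeoN m n) (hN : N2.NSp2 m n K θ) (k : H520.Ker0 m p) (o : M) :
    ∃ A : ℝ, 1 ≤ A ∧ ∀ s, 0 < s → s ≤ 1 → ∀ x z : M,
      p s x z ≤ A * Real.exp (A * dist x o) * (√s ^ n)⁻¹ * Real.exp (-(dist x z ^ 2 / (A * s))) := by
  obtain ⟨c₀, hc₀, hk⟩ := ku g hN k
  obtain ⟨A, hA, h⟩ := up_exp g hk hc₀ o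
  refine ⟨A, hA, fun s hs hs1 x z => ?_⟩
  have h1 := (ENNReal.ofReal_le_ofReal_iff (by positivity)).1 (h s hs hs1 x z)
  have e1 : s ^ (-(n / 2 : ℝ)) = (√s ^ n)⁻¹ := by
    rw [Real.rpow_neg hs.le, Real.sqrt_eq_rpow, ← Real.rpow_natCast, ← Real.rpow_mul hs.le]
    congr 2
    ring
  rwa [e1] at h1

/-- **(K6)**: tail of the kernel, with an exponential weight, uniform in the centre -/
theorem tail_exp (g : RG.GeoN m n) (hN : N2.NSp2 m n K θ) (k : H520.Ker0 m p) (L : ℝ)
    (hL : 0 ≤ L) : ∃ C : ℝ, 1 ≤ C ∧ ∀ s, 0 < s → s ≤ 1 → ∀ (x : M) (R : ℝ), 0 ≤ R →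
      Integrable (fun w => p s x w * Real.exp (L * (dist x w / √s))) m ∧
      ∫ w in {w | R ≤ dist x w}, p s x w * Real.exp (L * (dist x w / √s)) ∂m ≤
        C * Real.exp (-(R ^ 2 / (32 * s))) := by
  obtain ⟨c₀, hc₀, hk⟩ := ku g hN k
  obtain ⟨C, hC, h⟩ := tail g hk hc₀ L hL
  refine ⟨C, hC, fun s hs hs1 x R hR => ?_⟩
  have h0 := h s hs hs1 x 0 le_rfl
  have h1 := h s hs hs1 x R hR
  have huniv : {w : M | (0 : ℝ) ≤ dist x w} = univ := by
    ext w; simp
  have hcx : Continuous fun w => p s x w := (k.cont s hs).comp (Continuous.prodMk_right x)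
  have hc : Continuous fun w => p s x w * Real.exp (L * (dist x w / √s)) := by
    refine hcx.mul ?_
    fun_prop
  have hnn : ∀ w, 0 ≤ p s x w * Real.exp (L * (dist x w / √s)) := fun w =>
    mul_nonneg (k.nonneg s hs x w) (Real.exp_pos _).le
  have hle : ∀ w, ENNReal.ofReal (p s x w) * ENNReal.ofReal (Real.exp (L * (dist x w / √s)))
      = ENNReal.ofReal (p s x w * Real.exp (L * (dist x w / √s))) := fun w =>
    (ENNReal.ofReal_mul (k.nonneg s hs x w)).symm
  have hint : Integrable (fun w => p s x w * Real.exp (L * (dist x w / √s))) m := by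
    refine ⟨hc.aestronglyMeasurable, ?_⟩
    rw [hasFiniteIntegral_iff_ofReal (ae_of_all _ hnn)]
    rw [huniv, Measure.restrict_univ] at h0
    simp only [hle] at h0
    exact h0.trans_lt ENNReal.ofReal_lt_top
  refine ⟨hint, ?_⟩
  simp only [hle] at h1
  rw [← ofReal_integral_eq_lintegral_ofReal hint.integrableOn (ae_of_all _ hnn)] at h1
  exact (ENNReal.ofReal_le_ofReal_iff (by positivity)).1 h1

/-- **(K6)** -/
theorem tail_K6 (g : RG.GeoN m n) (hN : N2.NSp2 m n K θ) (k : H520.Ker0 m p) :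
    ∃ C : ℝ, 1 ≤ C ∧ ∀ s, 0 < s → s ≤ 1 → ∀ (x : M) (R : ℝ), 0 ≤ R →
      ∫ w in {w | R ≤ dist x w}, p s x w ∂m ≤ C * Real.exp (-(R ^ 2 / (32 * s))) := by
  obtain ⟨C, hC, h⟩ := tail_exp g hN k 0 le_rfl
  refine ⟨C, hC, fun s hs hs1 x R hR => ?_⟩
  have := (h s hs hs1 x R hR).2
  simpa using this

end

end Vale.Agent.P242.H751
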