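import Vale.Agent.P233.RA.IfG

/-! P242, package F-UP (helper751): volume of balls, uniform in the centre. -/

set_option linter.all false

open MeasureTheory Filter Topology Set Metric
open scoped ENNReal NNReal

universe u

namespace Vale.Agent.P242.H751

open Vale.Agent.P233 Vale.Agent.P233.RA

section

variable {M : Type u} [MetricSpace M] [MeasurableSpace M] [BorelSpace M]
  [SecondCountableTopology M] {m : Measure M} {n : ℕ}

theorem bg_real (g : RG.GeoN m n) : ∃ c : ℝ, 0 < c ∧ c ≤ 1 ∧ ∀ (p : M) (r R : ℝ), 0 < r → r ≤ R →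
    R ≤ 4 → c * (r / R) ^ n * m.real (ball p R) ≤ m.real (ball p r) := by
  obtain ⟨c, hc, h⟩ := g.bg 4 (by norm_num)
  refine ⟨min c 1, lt_min hc one_pos, min_le_right _ _, fun p r R hr hrR hR => ?_⟩
  have hR0 : 0 < R := hr.trans_le hrR
  have h1 := h p R (r / R) hR0 hR (div_pos hr hR0) ((div_le_one hR0).2 hrR)
  rw [div_mul_cancel₀ _ hR0.ne'] at h1
  have h2 := ENNReal.toReal_mono (g.fin p r).ne h1
  rw [ENNReal.toReal_mul, ENNReal.toReal_ofReal (by positivity)] at h2
  refine le_trans ?_ h2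
  have : 0 ≤ (r / R) ^ n := by positivity
  have h3 : 0 ≤ (m (ball p R)).toReal := ENNReal.toReal_nonneg
  have h4 : min c 1 ≤ c := min_le_left _ _
  exact mul_le_mul_of_nonneg_right (mul_le_mul_of_nonneg_right h4 this) h3

theorem mid (g : RG.GeoN m n) (x z : M) (a : ℝ) (ha : 0 ≤ a) (h : a ≤ dist x z) :
    ∃ w, dist x w = a ∧ dist w z = dist x z - a :=
  g.geo.geod x z a (dist x z - a) ha (by linarith) (by ring)

/-- one step of the volume growth, uniform in the centre -/
theorem growth_step (g : RG.GeoN m n) : ∃ D : ℝ, 1 ≤ D ∧ ∀ (x₀ : M) (R : ℝ), 1 ≤ R →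
    m.real (ball x₀ (R + 1)) ≤ D * m.real (ball x₀ R) := by
  obtain ⟨c, hc, hc1, hbg⟩ := bg_real g
  have hpos : (0 : ℝ) < c⁻¹ * 16 ^ n := by positivity
  refine ⟨c⁻¹ * 16 ^ n, ?_, fun x₀ R hR => ?_⟩
  · have h1 : (1 : ℝ) ≤ 16 ^ n := one_le_pow₀ (by norm_num)
    have h2 : 1 ≤ c⁻¹ := (one_le_inv₀ hc).2 hc1
    nlinarith
  obtain ⟨u, hu, hdisj, hcov⟩ := Vitali.exists_disjoint_subfamily_covering_enlargement_closedBall
    (ball x₀ (R - 1 / 2)) (fun y => y) (fun _ => (1 / 4 : ℝ)) (1 / 4) (fun _ _ => le_rfl) 5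
    (by norm_num)
  have hcount : u.Countable := by
    refine hdisj.countable_of_nonempty_interior fun y _ => ?_
    exact ⟨y, mem_interior_iff_mem_nhds.2 (closedBall_mem_nhds y (by norm_num))⟩
  have hsub : ball x₀ (R + 1) ⊆ ⋃ y ∈ u, ball y 4 := by
    intro z hz
    rw [mem_ball, dist_comm] at hz
    obtain ⟨z', hz'1, hz'2⟩ : ∃ z', dist x₀ z' < R - 1 / 2 ∧ dist z' z < 9 / 4 := by
      rcases lt_or_ge (dist x₀ z) (R - 1 / 2) with hlt | hge
      · exact ⟨z, hlt, by rw [dist_self]; positivity⟩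
      · obtain ⟨w, h1, h2⟩ := mid g x₀ z (R - 5 / 8) (by linarith) (by linarith)
        exact ⟨w, by linarith, by linarith⟩
    have hz'3 : z' ∈ ball x₀ (R - 1 / 2) := by rw [mem_ball, dist_comm]; exact hz'1
    obtain ⟨y, hy, hyz⟩ := hcov z' hz'3
    have h1 : z' ∈ closedBall y (5 * (1 / 4)) := hyz (mem_closedBall_self (by norm_num))
    rw [mem_iUnion₂]
    refine ⟨y, hy, ?_⟩
    rw [mem_closedBall] at h1
    rw [mem_ball]
    have := dist_triangle z z' y
    rw [dist_comm z z'] at this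
    linarith
  have hD' : ∀ y : M, m (ball y 4) ≤
      ENNReal.ofReal (c⁻¹ * 16 ^ n) * m (closedBall y (1 / 4)) := by
    intro y
    have h1 : m (closedBall y (1 / 4)) ≠ ∞ := ((measure_mono (closedBall_subset_ball
      (show (1 / 4 : ℝ) < 1 by norm_num))).trans_lt (g.fin _ _)).ne
    rw [← ofReal_measureReal (g.fin y 4).ne, ← ofReal_measureReal h1,
      ← ENNReal.ofReal_mul hpos.le]
    refine ENNReal.ofReal_le_ofReal ?_
    have h2 := hbg y (1 / 4) 4 (by norm_num) (by norm_num) le_rfl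
    have h3 : m.real (ball y (1 / 4)) ≤ m.real (closedBall y (1 / 4)) :=
      measureReal_mono ball_subset_closedBall h1
    have h4 : ((1 / 4 : ℝ) / 4) ^ n = (16 ^ n)⁻¹ := by
      rw [← inv_pow]; norm_num
    rw [h4] at h2
    have h5 := mul_le_mul_of_nonneg_left (h2.trans h3) hpos.le
    refine le_trans (le_of_eq ?_) h5
    field_simp
  have hmain : m (ball x₀ (R + 1)) ≤ ENNReal.ofReal (c⁻¹ * 16 ^ n) * m (ball x₀ R) := by
    calc m (ball x₀ (R + 1)) ≤ m (⋃ y ∈ u, ball y 4) := measure_mono hsub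
      _ ≤ ∑' y : u, m (ball (y : M) 4) := measure_biUnion_le m hcount _
      _ ≤ ∑' y : u, ENNReal.ofReal (c⁻¹ * 16 ^ n) * m (closedBall (y : M) (1 / 4)) :=
          ENNReal.tsum_le_tsum fun y => hD' y
      _ = ENNReal.ofReal (c⁻¹ * 16 ^ n) * m (⋃ y ∈ u, closedBall y (1 / 4)) := by
          rw [ENNReal.tsum_mul_left, measure_biUnion hcount hdisj fun y _ => measurableSet_closedBall]
      _ ≤ _ := by
          refine mul_le_mul_right (measure_mono ?_) _
          refine iUnion₂_subset fun y hy z hz => ?_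
          have h1 := hu hy
          rw [mem_ball] at *
          rw [mem_closedBall] at hz
          have := dist_triangle z y x₀
          linarith
  have h9 := ENNReal.toReal_mono (ENNReal.mul_ne_top ENNReal.ofReal_ne_top (g.fin _ _).ne) hmain
  rwa [ENNReal.toReal_mul, ENNReal.toReal_ofReal hpos.le] at h9

/-- volume comparison at all scales, uniform in the centre -/
theorem vol_all (g : RG.GeoN m n) : ∃ C : ℝ, 1 ≤ C ∧ ∀ (x : M) (r R : ℝ), 0 < r → r ≤ 1 → r ≤ R →
    m.real (ball x R) ≤ C * (R / r) ^ n * Real.exp (C * R) * m.real (ball x r) := by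
  obtain ⟨c, hc, hc1, hbg⟩ := bg_real g
  obtain ⟨D, hD, hstep⟩ := growth_step g
  have hD0 : 0 < D := by linarith
  have hlog : 0 ≤ Real.log D := Real.log_nonneg hD
  have hk : ∀ (x : M) (k : ℕ), m.real (ball x (1 + k)) ≤ D ^ k * m.real (ball x 1) := by
    intro x k
    induction k with
    | zero => simp
    | succ k ih =>
      have h1 := hstep x (1 + k) (by have : (0 : ℝ) ≤ k := k.cast_nonneg
                                     linarith)
      rw [show (1 : ℝ) + ((k + 1 : ℕ) : ℝ) = 1 + k + 1 by push_cast; ring]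
      calc _ ≤ _ := h1
        _ ≤ D * (D ^ k * m.real (ball x 1)) := mul_le_mul_of_nonneg_left ih hD0.le
        _ = _ := by ring
  have hbig : ∀ (x : M) (R : ℝ), 1 ≤ R →
      m.real (ball x R) ≤ D * Real.exp (Real.log D * R) * m.real (ball x 1) := by
    intro x R hR
    have h1 : R ≤ 1 + (⌈R - 1⌉₊ : ℝ) := by linarith [Nat.le_ceil (R - 1)]
    have h2 : (⌈R - 1⌉₊ : ℝ) ≤ R := by
      have := Nat.ceil_lt_add_one (show (0 : ℝ) ≤ R - 1 by linarith)
      linarith
    have h3 : m.real (ball x R) ≤ m.real (ball x (1 + ⌈R - 1⌉₊)) :=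
      measureReal_mono (ball_subset_ball h1) (g.fin _ _).ne
    refine h3.trans ((hk x _).trans ?_)
    refine mul_le_mul_of_nonneg_right ?_ measureReal_nonneg
    have h4 : D ^ (⌈R - 1⌉₊) ≤ Real.exp (Real.log D * R) := by
      have e1 : D ^ (⌈R - 1⌉₊) = Real.exp (Real.log D * (⌈R - 1⌉₊ : ℝ)) := by
        rw [Real.exp_mul, Real.exp_log hD0, Real.rpow_natCast]
      rw [e1]
      exact Real.exp_le_exp.2 (mul_le_mul_of_nonneg_left h2 hlog)
    have h5 := Real.exp_pos (Real.log D * R)
    nlinarith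
  have hci : 1 ≤ c⁻¹ := (one_le_inv₀ hc).2 hc1
  set C : ℝ := c⁻¹ * D + Real.log D with hC
  have hC1 : c⁻¹ * D ≤ C := by rw [hC]; linarith
  have hC2 : Real.log D ≤ C := by
    rw [hC]
    have : 0 ≤ c⁻¹ * D := by positivity
    linarith
  have hC3 : c⁻¹ ≤ C := by
    refine le_trans ?_ hC1
    nlinarith
  have hC4 : 1 ≤ C := hci.trans hC3
  refine ⟨C, hC4, fun x r R hr hr1 hrR => ?_⟩
  have hR0 : 0 < R := hr.trans_le hrR
  have hex : 1 ≤ Real.exp (C * R) := Real.one_le_exp (by positivity)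
  have hsmall : ∀ S : ℝ, r ≤ S → S ≤ 1 →
      m.real (ball x S) ≤ c⁻¹ * (S / r) ^ n * m.real (ball x r) := by
    intro S hS hS1
    have hS0 : 0 < S := hr.trans_le hS
    have h1 := hbg x r S hr hS (by linarith)
    have h2 := mul_le_mul_of_nonneg_left h1 (show 0 ≤ c⁻¹ * (S / r) ^ n by positivity)
    refine le_trans (le_of_eq ?_) h2
    have h3 : (S / r) ^ n * (r / S) ^ n = 1 := by
      rw [← mul_pow, div_mul_div_cancel₀ hr.ne', div_self hS0.ne', one_pow]
    calc m.real (ball x S) = c⁻¹ * c * ((S / r) ^ n * (r / S) ^ n) * m.real (ball x S) := by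
          rw [h3, inv_mul_cancel₀ hc.ne']; ring
      _ = _ := by ring
  rcases le_or_gt R 1 with hR1 | hR1
  · refine (hsmall R hrR hR1).trans ?_
    refine mul_le_mul_of_nonneg_right ?_ measureReal_nonneg
    have h1 : 0 ≤ (R / r) ^ n := by positivity
    have h2 : c⁻¹ * (R / r) ^ n ≤ C * (R / r) ^ n := mul_le_mul_of_nonneg_right hC3 h1
    have h3 : 0 ≤ C * (R / r) ^ n := by positivity
    nlinarith
  · have h1 := hbig x R hR1.le
    have h2 := hsmall 1 hr1 le_rfl
    have h3 : m.real (ball x R) ≤ D * Real.exp (Real.log D * R) *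
        (c⁻¹ * (1 / r) ^ n * m.real (ball x r)) :=
      h1.trans (mul_le_mul_of_nonneg_left h2 (by positivity))
    refine h3.trans ?_
    have h4 : (1 / r) ^ n ≤ (R / r) ^ n :=
      pow_le_pow_left₀ (by positivity) (div_le_div_of_nonneg_right hR1.le hr.le) n
    have h5 : Real.exp (Real.log D * R) ≤ Real.exp (C * R) :=
      Real.exp_le_exp.2 (mul_le_mul_of_nonneg_right hC2 hR0.le)
    calc D * Real.exp (Real.log D * R) * (c⁻¹ * (1 / r) ^ n * m.real (ball x r))
        = (c⁻¹ * D) * (1 / r) ^ n * Real.exp (Real.log D * R) * m.real (ball x r) := by ring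
      _ ≤ C * (R / r) ^ n * Real.exp (C * R) * m.real (ball x r) := by
          refine mul_le_mul_of_nonneg_right ?_ measureReal_nonneg
          exact mul_le_mul (mul_le_mul hC1 h4 (by positivity) (by positivity)) h5
            (by positivity) (by positivity)

/-- lower bound for the volume with an exponential weight -/
theorem vol_low (g : RG.GeoN m n) (o : M) : ∃ C : ℝ, 1 ≤ C ∧ ∀ (x : M) (r : ℝ), 0 < r → r ≤ 1 →
    C⁻¹ * Real.exp (-(C * dist x o)) * r ^ n ≤ m.real (ball x r) := by
  obtain ⟨C, hC, h⟩ := vol_all g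
  have := g.full
  have hV : 0 < m.real (ball o 1) := by
    rw [measureReal_def]
    exact ENNReal.toReal_pos (isOpen_ball.measure_pos m ⟨o, mem_ball_self one_pos⟩).ne'
      (g.fin o 1).ne
  set V := m.real (ball o 1) with hVd
  set b : ℝ := C + n with hb
  have hb0 : 0 ≤ b := by rw [hb]; positivity
  set E : ℝ := C * Real.exp b with hE
  have hE0 : 0 < E := by rw [hE]; positivity
  set A : ℝ := max 1 (max b (E / V)) with hA
  have hA1 : 1 ≤ A := le_max_left _ _
  have hA2 : b ≤ A := (le_max_left _ _).trans (le_max_right _ _)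
  have hA3 : E / V ≤ A := (le_max_right _ _).trans (le_max_right _ _)
  have hA0 : 0 < A := by linarith
  refine ⟨A, hA1, fun x r hr hr1 => ?_⟩
  set d := dist x o with hd
  have hd0 : 0 ≤ d := dist_nonneg
  have h1 := h x r (d + 1) hr hr1 (by linarith)
  have h2 : V ≤ m.real (ball x (d + 1)) := by
    refine measureReal_mono (fun w hw => ?_) (g.fin _ _).ne
    rw [mem_ball] at *
    have := dist_triangle w o x
    rw [dist_comm o x] at this
    linarith
  have h3 : (d + 1) ^ n ≤ Real.exp (n * (d + 1)) := by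
    rw [Real.exp_nat_mul]
    exact pow_le_pow_left₀ (by linarith) (by linarith [Real.add_one_le_exp (d + 1)]) n
  have h4 : V * r ^ n ≤ E * Real.exp (b * d) * m.real (ball x r) := by
    have e1 : V * r ^ n ≤ C * ((d + 1) / r) ^ n * Real.exp (C * (d + 1)) * m.real (ball x r) * r ^ n :=
      mul_le_mul_of_nonneg_right (h2.trans h1) (by positivity)
    refine e1.trans ?_
    have e2 : C * ((d + 1) / r) ^ n * Real.exp (C * (d + 1)) * m.real (ball x r) * r ^ n
        = C * (d + 1) ^ n * Real.exp (C * (d + 1)) * m.real (ball x r) := by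
      rw [div_pow]
      field_simp
    rw [e2]
    refine mul_le_mul_of_nonneg_right ?_ measureReal_nonneg
    calc C * (d + 1) ^ n * Real.exp (C * (d + 1))
        ≤ C * Real.exp (n * (d + 1)) * Real.exp (C * (d + 1)) := by gcongr
      _ = E * Real.exp (b * d) := by
          rw [hE, hb, mul_assoc, mul_assoc, ← Real.exp_add, ← Real.exp_add]
          congr 2
          ring
  have h5 : E * Real.exp (b * d) ≤ A * V * Real.exp (A * d) := by
    have e1 : E ≤ A * V := (div_le_iff₀ hV).1 hA3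
    have e2 : Real.exp (b * d) ≤ Real.exp (A * d) :=
      Real.exp_le_exp.2 (mul_le_mul_of_nonneg_right hA2 hd0)
    exact mul_le_mul e1 e2 (Real.exp_pos _).le (by positivity)
  have h6 : V * r ^ n ≤ A * V * Real.exp (A * d) * m.real (ball x r) :=
    h4.trans (mul_le_mul_of_nonneg_right h5 measureReal_nonneg)
  have h7 : r ^ n ≤ A * Real.exp (A * d) * m.real (ball x r) := by
    have : V * r ^ n ≤ V * (A * Real.exp (A * d) * m.real (ball x r)) := by
      refine h6.trans (le_of_eq ?_)
      ring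
    exact le_of_mul_le_mul_left this hV
  calc A⁻¹ * Real.exp (-(A * d)) * r ^ n
      ≤ A⁻¹ * Real.exp (-(A * d)) * (A * Real.exp (A * d) * m.real (ball x r)) :=
        mul_le_mul_of_nonneg_left h7 (by positivity)
    _ = A⁻¹ * A * (Real.exp (-(A * d)) * Real.exp (A * d)) * m.real (ball x r) := by ring
    _ = m.real (ball x r) := by
        rw [← Real.exp_add, inv_mul_cancel₀ hA0.ne', neg_add_cancel, Real.exp_zero]
        ring

end

end Vale.Agent.P242.H751
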